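import Mathlib

/-!
Column systems: a countable set split into columns, each with a finitely additive measure.
The ideal of small sets and the rank sequence `H`.
-/

namespace Vale.Agent.P068

open Set Filter Topology

/-- A countable set split into columns, each column carrying a bounded finitely additive measure
that vanishes on finite sets. -/
structure ColSys (G : Type) where
  col : G → ℕ
  enc : G → ℕ
  enc_inj : Function.Injective enc
  mu : Set G → ℕ → ℝ
  nonneg : ∀ S i, 0 ≤ mu S i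
  le_two : ∀ S i, mu S i ≤ 2
  union : ∀ S T i, Disjoint S T → mu (S ∪ T) i = mu S i + mu T i
  zero : ∀ S i, (S ∩ {g | col g = i}).Finite → mu S i = 0

namespace ColSys

variable {G : Type} (c : ColSys G)

noncomputable def w (S : Set G) (i : ℕ) : ℝ := c.mu S i / (i + 1)

def Sm (S : Set G) : Prop := Summable (c.w S)

noncomputable def tail (S : Set G) (n : ℕ) : ℝ := ∑' i, c.w S (i + n)

def F (m : ℕ) : Set G := {g | c.enc g < m}

noncomputable def cnt (S : Set G) (m : ℕ) : ℕ := (S ∩ c.F m).ncard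

noncomputable def H (S : Set G) (m : ℕ) : ℝ := c.cnt S m + (m : ℝ) ^ 2 * c.tail S (m ^ 2)

lemma mu_mono {S T : Set G} (h : S ⊆ T) (i : ℕ) : c.mu S i ≤ c.mu T i := by
  have := c.union S (T \ S) i disjoint_sdiff_right
  rw [union_sdiff_cancel h] at this
  linarith [c.nonneg (T \ S) i]

lemma mu_union_le (S T : Set G) (i : ℕ) : c.mu (S ∪ T) i ≤ c.mu S i + c.mu T i := by
  have := c.union S (T \ S) i disjoint_sdiff_right
  rw [union_sdiff_self] at this
  linarith [c.mu_mono (sdiff_subset : T \ S ⊆ T) i]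

lemma w_nonneg (S : Set G) (i : ℕ) : 0 ≤ c.w S i := div_nonneg (c.nonneg S i) (by positivity)

lemma w_mono {S T : Set G} (h : S ⊆ T) (i : ℕ) : c.w S i ≤ c.w T i :=
  div_le_div_of_nonneg_right (c.mu_mono h i) (by positivity)

lemma w_union {S T : Set G} (h : Disjoint S T) (i : ℕ) : c.w (S ∪ T) i = c.w S i + c.w T i := by
  unfold w; rw [c.union S T i h, add_div]

lemma w_zero {S : Set G} {i : ℕ} (h : (S ∩ {g | c.col g = i}).Finite) : c.w S i = 0 := by
  unfold w; rw [c.zero S i h, zero_div]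

lemma w_le (S : Set G) (i : ℕ) : c.w S i ≤ 2 / (i + 1) :=
  div_le_div_of_nonneg_right (c.le_two S i) (by positivity)

variable {c} in
lemma Sm.mono {S T : Set G} (hT : c.Sm T) (h : S ⊆ T) : c.Sm S :=
  Summable.of_nonneg_of_le (c.w_nonneg S) (c.w_mono h) hT

variable {c} in
lemma Sm.union {S T : Set G} (hS : c.Sm S) (hT : c.Sm T) : c.Sm (S ∪ T) := by
  refine Summable.of_nonneg_of_le (c.w_nonneg _) (fun i => ?_) (Summable.add hS hT)
  unfold w; rw [← add_div]
  exact div_le_div_of_nonneg_right (c.mu_union_le S T i) (by positivity)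

lemma sm_of_finite {S : Set G} (h : S.Finite) : c.Sm S := by
  have : c.w S = fun _ => 0 := funext fun i => c.w_zero (h.inter_of_left _)
  unfold Sm; rw [this]; exact summable_zero

lemma sm_empty : c.Sm ∅ := c.sm_of_finite finite_empty

lemma tail_nonneg (S : Set G) (n : ℕ) : 0 ≤ c.tail S n := tsum_nonneg fun _ => c.w_nonneg S _

variable {c} in
lemma Sm.shift {S : Set G} (h : c.Sm S) (n : ℕ) : Summable fun i => c.w S (i + n) :=
  (summable_nat_add_iff n).2 h

lemma tail_mono {S T : Set G} (hT : c.Sm T) (h : S ⊆ T) (n : ℕ) : c.tail S n ≤ c.tail T n :=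
  Summable.tsum_le_tsum (fun _ => c.w_mono h _) ((hT.mono h).shift n) (hT.shift n)

lemma tail_union {S T : Set G} (hS : c.Sm S) (hT : c.Sm T) (h : Disjoint S T) (n : ℕ) :
    c.tail (S ∪ T) n = c.tail S n + c.tail T n := by
  unfold tail
  rw [← Summable.tsum_add (hS.shift n) (hT.shift n)]
  exact tsum_congr fun i => c.w_union h _

lemma tail_tendsto (S : Set G) : Tendsto (c.tail S) atTop (𝓝 0) := tendsto_sum_nat_add (c.w S)

lemma tail_le_tail_zero {S : Set G} (h : c.Sm S) (n : ℕ) : c.tail S n ≤ c.tail S 0 := by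
  have h1 := h.sum_add_tsum_nat_add n
  have h2 : 0 ≤ ∑ i ∈ Finset.range n, c.w S i := Finset.sum_nonneg fun i _ => c.w_nonneg S i
  unfold tail
  simp only [add_zero]
  linarith

lemma tail_zero_eq {S : Set G} (h : c.Sm S) (n : ℕ) (hS : S ⊆ {g | n ≤ c.col g}) :
    c.tail S 0 = c.tail S n := by
  have h1 := h.sum_add_tsum_nat_add n
  have h2 : ∑ i ∈ Finset.range n, c.w S i = 0 := by
    refine Finset.sum_eq_zero fun i hi => c.w_zero ?_
    convert finite_empty
    ext g
    simp only [mem_inter_iff, mem_ofPred_eq, mem_empty_iff_false, iff_false, not_and]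
    intro hg hi'
    have := hS hg
    simp only [mem_ofPred_eq, Finset.mem_range] at this hi
    omega
  unfold tail
  simp only [add_zero]
  linarith

lemma F_finite (m : ℕ) : (c.F m).Finite :=
  (finite_lt_nat m).preimage c.enc_inj.injOn

lemma F_ncard (m : ℕ) : (c.F m).ncard ≤ m := by
  have := ncard_le_ncard_of_injOn (s := c.F m) (t := Iio m) c.enc (fun g hg => hg)
    c.enc_inj.injOn (finite_Iio m)
  simpa using this

lemma F_mono {m n : ℕ} (h : m ≤ n) : c.F m ⊆ c.F n := fun _ hg => lt_of_lt_of_le hg h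

lemma cnt_le (S : Set G) (m : ℕ) : c.cnt S m ≤ m :=
  (ncard_le_ncard inter_subset_right (c.F_finite m)).trans (c.F_ncard m)

lemma cnt_union {S T : Set G} (h : Disjoint S T) (m : ℕ) :
    c.cnt (S ∪ T) m = c.cnt S m + c.cnt T m := by
  unfold cnt
  rw [union_inter_distrib_right, ncard_union_eq (h.mono inter_subset_left inter_subset_left)
    ((c.F_finite m).inter_of_right _) ((c.F_finite m).inter_of_right _)]

lemma cnt_mono {S T : Set G} (h : S ⊆ T) (m : ℕ) : c.cnt S m ≤ c.cnt T m :=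
  ncard_le_ncard (inter_subset_inter_left _ h) ((c.F_finite m).inter_of_right _)

lemma cnt_zero {S : Set G} {m : ℕ} (h : Disjoint S (c.F m)) : c.cnt S m = 0 := by
  unfold cnt; rw [h.inter_eq, ncard_empty]

lemma H_union {S T : Set G} (hS : c.Sm S) (hT : c.Sm T) (h : Disjoint S T) (m : ℕ) :
    c.H (S ∪ T) m = c.H S m + c.H T m := by
  unfold H
  rw [c.cnt_union h, c.tail_union hS hT h]; push_cast; ring

lemma cnt_le_H (S : Set G) (m : ℕ) : (c.cnt S m : ℝ) ≤ c.H S m := by
  unfold H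
  have := mul_nonneg (sq_nonneg (m : ℝ)) (c.tail_nonneg S (m ^ 2))
  linarith

lemma H_nonneg (S : Set G) (m : ℕ) : 0 ≤ c.H S m := le_trans (Nat.cast_nonneg _) (c.cnt_le_H S m)

lemma H_mono {S T : Set G} (hT : c.Sm T) (h : S ⊆ T) (m : ℕ) : c.H S m ≤ c.H T m := by
  unfold H
  have h1 : (c.cnt S m : ℝ) ≤ c.cnt T m := by exact_mod_cast c.cnt_mono h m
  have h2 := mul_le_mul_of_nonneg_left (c.tail_mono hT h (m ^ 2)) (sq_nonneg (m : ℝ))
  linarith

lemma H_union_le {S T : Set G} (hS : c.Sm S) (hT : c.Sm T) (m : ℕ) :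
    c.H (S ∪ T) m ≤ c.H S m + c.H T m := by
  have := c.H_union hS (hT.mono (sdiff_subset : T \ S ⊆ T)) disjoint_sdiff_right m
  rw [union_sdiff_self] at this
  linarith [c.H_mono hT (sdiff_subset : T \ S ⊆ T) m]

lemma H_le_of_subset_union {R S T : Set G} (hS : c.Sm S) (hT : c.Sm T) (h : R ⊆ S ∪ T) (m : ℕ) :
    c.H R m ≤ c.H S m + c.H T m :=
  (c.H_mono (hS.union hT) h m).trans (c.H_union_le hS hT m)

/-- A set that is finite in all columns but one has bounded diffuse part. -/
lemma H_le_cnt_add_two {S : Set G} {i : ℕ} (h : ∀ j, j ≠ i → (S ∩ {g | c.col g = j}).Finite)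
    (m : ℕ) : c.H S m ≤ c.cnt S m + 2 := by
  unfold H
  suffices (m : ℝ) ^ 2 * c.tail S (m ^ 2) ≤ 2 by linarith
  unfold tail
  by_cases hi : m ^ 2 ≤ i
  · rw [tsum_eq_single (i - m ^ 2) (fun j hj => c.w_zero (h _ (by omega)))]
    rw [show i - m ^ 2 + m ^ 2 = i by omega]
    have h1 := c.w_le S i
    have h2 : (m : ℝ) ^ 2 ≤ i + 1 := by
      have : ((m ^ 2 : ℕ) : ℝ) ≤ i := by exact_mod_cast hi
      push_cast at this; linarith
    calc (m : ℝ) ^ 2 * c.w S i ≤ (i + 1) * (2 / (i + 1)) :=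
          mul_le_mul h2 h1 (c.w_nonneg S i) (by positivity)
      _ = 2 := by field_simp
  · have : (fun j => c.w S (j + m ^ 2)) = fun _ => 0 :=
      funext fun j => c.w_zero (h _ (by omega))
    rw [this]; simp

lemma H_finite {R : Set G} (h : R.Finite) (m : ℕ) : c.H R m = c.cnt R m := by
  unfold H tail
  have : (fun j => c.w R (j + m ^ 2)) = fun _ => 0 :=
    funext fun j => c.w_zero (h.inter_of_left _)
  rw [this]; simp

lemma H_finite_le {R : Set G} (h : R.Finite) (m : ℕ) : c.H R m ≤ R.ncard := by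
  rw [c.H_finite h]
  exact_mod_cast ncard_le_ncard inter_subset_left h

lemma H_finite_eventually {R : Set G} (h : R.Finite) : ∀ᶠ m in atTop, c.H R m = R.ncard := by
  obtain ⟨n, hn⟩ := (h.image c.enc).bddAbove
  filter_upwards [eventually_gt_atTop n] with m hm
  rw [c.H_finite h]
  unfold cnt
  rw [inter_eq_self_of_subset_left]
  intro g hg
  exact lt_of_le_of_lt (hn (mem_image_of_mem _ hg)) hm

lemma H_empty (m : ℕ) : c.H ∅ m = 0 := by
  rw [c.H_finite finite_empty]; simp [cnt]

/-- Far columns have little influence on early times. -/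
lemma far_small {Y : Set G} (hY : c.Sm Y) (M : ℕ) :
    ∃ n₀, ∀ n ≥ n₀, ∀ m ≤ M, c.H (Y ∩ {g | n ≤ c.col g}) m ≤ 1 := by
  obtain ⟨n₁, hn₁⟩ := ((c.F_finite M).image c.col).bddAbove
  have ht := (c.tail_tendsto Y).const_mul ((M : ℝ) ^ 2)
  rw [mul_zero] at ht
  obtain ⟨n₂, hn₂⟩ := eventually_atTop.1 (ht.eventually (eventually_le_nhds zero_lt_one))
  refine ⟨max (n₁ + 1) n₂, fun n hn m hm => ?_⟩
  have hs : c.Sm (Y ∩ {g | n ≤ c.col g}) := hY.mono inter_subset_left
  unfold H
  rw [c.cnt_zero]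
  · have h1 := c.tail_le_tail_zero hs (m ^ 2)
    rw [c.tail_zero_eq hs n inter_subset_right] at h1
    have h2 := c.tail_mono hY (inter_subset_left : Y ∩ {g | n ≤ c.col g} ⊆ Y) n
    have h3 := hn₂ n (le_trans (le_max_right _ _) hn)
    have h4 : (m : ℝ) ^ 2 ≤ (M : ℝ) ^ 2 := by
      have : (m : ℝ) ≤ M := by exact_mod_cast hm
      gcongr
    have h5 := mul_le_mul h4 (h1.trans h2) (c.tail_nonneg _ _) (sq_nonneg _)
    simp only [Nat.cast_zero, zero_add]
    linarith
  · rw [disjoint_left]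
    rintro g ⟨-, hg⟩ hg'
    have := hn₁ (mem_image_of_mem c.col (c.F_mono hm hg'))
    have h2 := le_trans (le_max_left _ _) hn
    simp only [mem_ofPred_eq] at hg
    omega

end ColSys

/-- First crossing: a divergent series with small terms has a far block of prescribed sum. -/
lemma exists_block {y : ℕ → ℝ} (h0 : ∀ i, 0 ≤ y i) (hs : ¬ Summable y) (t : ℕ) {d : ℝ}
    (hd : 0 < d) (hy : ∀ i ≥ t, y i ≤ d) :
    ∃ n, d ≤ ∑ i ∈ Finset.range n, y (i + t) ∧ ∑ i ∈ Finset.range n, y (i + t) ≤ 2 * d := by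
  classical
  have hs' : ¬ Summable fun i => y (i + t) := fun h => hs ((summable_nat_add_iff t).1 h)
  have ht := (not_summable_iff_tendsto_nat_atTop_of_nonneg (fun i => h0 (i + t))).1 hs'
  have hex : ∃ n, d ≤ ∑ i ∈ Finset.range n, y (i + t) := (ht.eventually_ge_atTop d).exists
  refine ⟨Nat.find hex, Nat.find_spec hex, ?_⟩
  rcases hn : Nat.find hex with _ | n
  · simp; linarith
  · have := Nat.find_min hex (m := n) (by omega)
    rw [Finset.sum_range_succ]
    have h2 := hy (n + t) (by omega)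
    linarith [not_le.1 this]

/-- A divergent series with terms tending to zero has a convergent subseries with slowly
decaying tails. -/
lemma exists_slow_subseries {y η : ℕ → ℝ} (h0 : ∀ i, 0 ≤ y i) (hs : ¬ Summable y)
    (hy : Tendsto y atTop (𝓝 0)) (hη : Tendsto η atTop (𝓝 0)) :
    ∃ J : Set ℕ, Summable (J.indicator y) ∧
      ∀ᶠ m in atTop, η m ≤ ∑' i, J.indicator y (i + m ^ 2) := by
  classical
  have hthr : ∀ k : ℕ, ∃ t, k ≤ t ∧ ∀ m ≥ t, η m ≤ (1 / 2 : ℝ) ^ k ∧ y m ≤ (1 / 2 : ℝ) ^ k := by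
    intro k
    have hp : (0 : ℝ) < (1 / 2) ^ k := by positivity
    obtain ⟨t, ht⟩ := eventually_atTop.1 ((hη.eventually (eventually_le_nhds hp)).and
      (hy.eventually (eventually_le_nhds hp)))
    exact ⟨max k t, le_max_left _ _, fun m hm => ht m (le_trans (le_max_right _ _) hm)⟩
  choose t htk ht using hthr
  have hblk : ∀ k : ℕ, ∃ n, (1 / 2 : ℝ) ^ k ≤ ∑ i ∈ Finset.range n, y (i + t (k + 1) ^ 2) ∧
      ∑ i ∈ Finset.range n, y (i + t (k + 1) ^ 2) ≤ 2 * (1 / 2 : ℝ) ^ k := by
    intro k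
    refine exists_block h0 hs _ (by positivity) fun i hi => ?_
    have h1 : t (k + 1) ≤ i := le_trans (Nat.le_self_pow (by norm_num) _) hi
    refine ((ht (k + 1) i h1).2).trans ?_
    rw [pow_succ]
    have : (0 : ℝ) < (1 / 2) ^ k := by positivity
    linarith
  choose n hn1 hn2 using hblk
  let B : ℕ → Finset ℕ := fun k => (Finset.range (n k)).image (· + t (k + 1) ^ 2)
  have hB : ∀ k, ∑ i ∈ B k, y i = ∑ i ∈ Finset.range (n k), y (i + t (k + 1) ^ 2) := by
    intro k
    exact Finset.sum_image fun a _ b _ h => by simpa using h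
  let J : Set ℕ := ⋃ k, (B k : Set ℕ)
  have hpart : ∀ K, ∑ i ∈ (Finset.range K).biUnion B, y i ≤
      ∑ k ∈ Finset.range K, 2 * (1 / 2 : ℝ) ^ k := by
    intro K
    induction K with
    | zero => simp
    | succ K ih =>
      rw [Finset.range_add_one, Finset.biUnion_insert, Finset.sum_insert (by simp)]
      have h1 := Finset.sum_union_inter (s₁ := B K) (s₂ := (Finset.range K).biUnion B) (f := y)
      have h2 : 0 ≤ ∑ i ∈ B K ∩ (Finset.range K).biUnion B, y i :=
        Finset.sum_nonneg fun i _ => h0 i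
      have h3 := hn2 K
      rw [← hB] at h3
      linarith
  have hsum : Summable (J.indicator y) := by
    refine summable_of_sum_le (c := 4) (fun i => indicator_nonneg (fun i _ => h0 i) i) fun u => ?_
    have hidx : ∀ i : ℕ, ∃ k, i ∈ J → i ∈ B k := by
      intro i
      by_cases hi : i ∈ J
      · obtain ⟨k, hk⟩ := mem_iUnion.1 hi
        exact ⟨k, fun _ => hk⟩
      · exact ⟨0, fun h => absurd h hi⟩
    choose κ hκ using hidx
    let K := u.sup κ + 1
    have h1 : ∑ i ∈ u, J.indicator y i = ∑ i ∈ u.filter (· ∈ J), y i := by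
      rw [Finset.sum_filter]
      exact Finset.sum_congr rfl fun i _ => by simp [indicator]
    have h2 : ∑ i ∈ u.filter (· ∈ J), y i ≤ ∑ i ∈ (Finset.range K).biUnion B, y i := by
      refine Finset.sum_le_sum_of_subset_of_nonneg (fun i hi => ?_) fun i _ _ => h0 i
      rw [Finset.mem_filter] at hi
      exact Finset.mem_biUnion.2 ⟨κ i, Finset.mem_range.2 (Nat.lt_succ_of_le
        (Finset.le_sup (f := κ) hi.1)), hκ i hi.2⟩
    have h3 : ∑ k ∈ Finset.range K, 2 * (1 / 2 : ℝ) ^ k ≤ 4 := by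
      rw [← Finset.mul_sum]
      have := Summable.sum_le_tsum (Finset.range K) (fun k _ => by positivity)
        summable_geometric_two
      rw [tsum_geometric_two] at this
      linarith
    linarith [hpart K]
  refine ⟨J, hsum, ?_⟩
  filter_upwards [eventually_ge_atTop (t 0)] with m hm
  have hex : ∃ k, m < t (k + 1) := ⟨m, lt_of_lt_of_le (Nat.lt_succ_self m) (htk _)⟩
  set k := Nat.find hex with hk
  have hk1 : m < t (k + 1) := Nat.find_spec hex
  have hk2 : t k ≤ m := by
    rcases hk0 : k with _ | k'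
    · exact hm
    · have := Nat.find_min hex (m := k') (by omega)
      omega
  refine ((ht k m hk2).1).trans ((hn1 k).trans ?_)
  have hle : m ^ 2 ≤ t (k + 1) ^ 2 := Nat.pow_le_pow_left hk1.le 2
  have hsum' : Summable fun i => J.indicator y (i + m ^ 2) := (summable_nat_add_iff _).2 hsum
  have h1 := Summable.sum_le_tsum ((Finset.range (n k)).image (· + (t (k + 1) ^ 2 - m ^ 2)))
    (fun i _ => indicator_nonneg (fun i _ => h0 i) _) hsum'
  refine le_trans (le_of_eq ?_) h1
  rw [Finset.sum_image fun a _ b _ h => by simpa using h]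
  refine Finset.sum_congr rfl fun i hi => ?_
  rw [show i + (t (k + 1) ^ 2 - m ^ 2) + m ^ 2 = i + t (k + 1) ^ 2 by omega, indicator_of_mem]
  exact mem_iUnion.2 ⟨k, Finset.mem_coe.2 (Finset.mem_image.2 ⟨i, hi, rfl⟩)⟩

namespace ColSys

variable {G : Type} (c : ColSys G)

lemma w_inter_cols (Y : Set G) (J : Set ℕ) :
    c.w (Y ∩ {g | c.col g ∈ J}) = J.indicator (c.w Y) := by
  funext i
  by_cases hi : i ∈ J
  · rw [indicator_of_mem hi]
    have h1 := c.w_union (S := Y ∩ {g | c.col g ∈ J}) (T := Y \ {g | c.col g ∈ J})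
      (disjoint_left.2 fun g hg hg' => hg'.2 hg.2) i
    rw [inter_union_sdiff, c.w_zero (S := Y \ {g | c.col g ∈ J})] at h1
    · linarith
    · convert finite_empty
      ext g
      simp only [mem_inter_iff, Set.mem_sdiff, mem_ofPred_eq, mem_empty_iff_false, iff_false, not_and]
      rintro ⟨-, h⟩ rfl
      exact h hi
  · rw [indicator_of_notMem hi]
    apply c.w_zero
    convert finite_empty
    ext g
    simp only [mem_inter_iff, mem_ofPred_eq, mem_empty_iff_false, iff_false, not_and]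
    rintro ⟨-, h⟩ rfl
    exact hi h

/-- A positive set contains a small set that eventually dominates a given small set. -/
lemma exists_dominating {Y : Set G} (hY : ¬ c.Sm Y) (S : Set G) :
    ∃ T ⊆ Y, c.Sm T ∧ ∀ᶠ m in atTop, c.H S m + 1 ≤ c.H T m := by
  have hy : Tendsto (c.w Y) atTop (𝓝 0) := by
    refine squeeze_zero (c.w_nonneg Y) (c.w_le Y) ?_
    exact Tendsto.const_div_atTop (tendsto_atTop_add_const_right _ _ tendsto_natCast_atTop_atTop) 2
  have hη : Tendsto (fun m : ℕ => c.tail S (m ^ 2) + 2 / (m : ℝ)) atTop (𝓝 0) := by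
    have h1 : Tendsto (fun m : ℕ => c.tail S (m ^ 2)) atTop (𝓝 0) :=
      (c.tail_tendsto S).comp (tendsto_pow_atTop (by norm_num))
    simpa using h1.add (tendsto_const_div_atTop_nhds_zero_nat (2 : ℝ))
  obtain ⟨J, hJ, hm⟩ := exists_slow_subseries (c.w_nonneg Y) hY hy hη
  refine ⟨Y ∩ {g | c.col g ∈ J}, inter_subset_left, ?_, ?_⟩
  · unfold Sm; rw [c.w_inter_cols]; exact hJ
  · filter_upwards [hm, eventually_ge_atTop 1] with m hm hm1
    have h1 : c.tail (Y ∩ {g | c.col g ∈ J}) (m ^ 2) = ∑' i, J.indicator (c.w Y) (i + m ^ 2) := by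
      unfold tail; rw [c.w_inter_cols]
    unfold H
    rw [h1]
    have h2 := mul_le_mul_of_nonneg_left hm (sq_nonneg (m : ℝ))
    have h3 : (1 : ℝ) ≤ m := by exact_mod_cast hm1
    have h4 : (m : ℝ) ^ 2 * (c.tail S (m ^ 2) + 2 / (m : ℝ)) =
        (m : ℝ) ^ 2 * c.tail S (m ^ 2) + 2 * m := by field_simp
    have h5 : (c.cnt S m : ℝ) ≤ m := by exact_mod_cast c.cnt_le S m
    have h6 : (0 : ℝ) ≤ c.cnt (Y ∩ {g | c.col g ∈ J}) m := Nat.cast_nonneg _
    linarith

end ColSys

end Vale.Agent.P068
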