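import Mathlib

namespace Vale.Agent.P068

/-- The contraction `M.X = (M* ↾ X)*` of `M` onto `X`. -/
def contractOnto {α : Type} (M : Matroid α) (X : Set α) : Matroid α :=
  (M.dual.restrict X).dual

/-- The family `M` of matroids on the ground set `E` has a packing/covering partition. -/
def HasPackingCoveringPartition {α Θ : Type} (E : Set α) (M : Θ → Matroid α) : Prop :=
  ∃ (P C : Set α) (S I : Θ → Set α),
    Disjoint P C ∧ P ∪ C = E ∧
    (∀ i, S i ⊆ P) ∧ (∀ i, I i ⊆ C) ∧
    (∀ i j, i ≠ j → Disjoint (S i) (S j)) ∧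
    (∀ i, ((M i).restrict P).closure (S i) = P) ∧
    (∀ i, (contractOnto (M i) C).Indep (I i)) ∧
    ⋃ i, I i = C

/-- The pair `M`, `N` of matroids on the ground set `E` satisfies intersection. -/
def SatisfiesIntersection {α : Type} (E : Set α) (M N : Matroid α) : Prop :=
  ∃ J JM JN : Set α, M.Indep J ∧ N.Indep J ∧ Disjoint JM JN ∧ JM ∪ JN = J ∧
    M.closure JM ∪ N.closure JN = E

/-- A matroid is uniform if every subset of its ground set is independent or spanning. -/
def IsUniform {α : Type} (U : Matroid α) : Prop :=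
  ∀ X ⊆ U.E, U.Indep X ∨ U.Spanning X

/-- A matroid is partitional if it is a direct sum of uniform matroids. -/
def IsPartitional {α : Type} (M : Matroid α) : Prop :=
  ∃ (ι : Type) (U : ι → Matroid α)
    (h : Pairwise (Function.onFun Disjoint fun i => (U i).E)),
    (∀ i, IsUniform (U i)) ∧ M = Matroid.disjointSigma U h

end Vale.Agent.P068
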