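import Vale.Agent.P068.Uniform

/-!
The transfinite recursion of length continuum producing an antichain modulo small sets.
-/

namespace Vale.Agent.P068

open Set Cardinal

lemma exists_rec {K T : Type} [LinearOrder K] [WellFoundedLT K] (P : K → Set T → T → Prop)
    [Nonempty T]
    (h : ∀ (k : K) (f : K → T), (∀ l < k, P l (f '' Iio l) (f l)) → ∃ b, P k (f '' Iio k) b) :
    ∃ f : K → T, ∀ k, P k (f '' Iio k) (f k) := by
  classical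
  let F : (k : K) → ((l : K) → l < k → T) → T := fun k prev =>
    Classical.epsilon fun b => P k {t | ∃ l, ∃ hl : l < k, prev l hl = t} b
  let f : K → T := (wellFounded_lt (α := K)).fix F
  have hf : ∀ k, f k = Classical.epsilon fun b => P k (f '' Iio k) b := by
    intro k
    have h1 : f k = F k fun l _ => f l := WellFounded.fix_eq _ F k
    rw [h1]
    simp only [F]
    congr 2
    funext b
    congr 1
    ext t
    simp
  refine ⟨f, fun k => ?_⟩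
  induction k using WellFoundedLT.induction with
  | ind k ih =>
    rw [hf k]
    exact Classical.epsilon_spec (h k f ih)

lemma exists_notMem_of_lt {s : Set (ℕ → Bool)} (h : #s < 𝔠) : ∃ j, j ∉ s := by
  by_contra hcon
  have : s = Set.univ := eq_univ_of_forall fun j => by_contra fun hj => hcon ⟨j, hj⟩
  rw [this, mk_univ] at h
  simp at h

lemma mk_biUnion_lt {T : Type} {O : Set T} (hO : #O < 𝔠) {f : T → Set (ℕ → Bool)}
    (hf : ∀ a, (f a).Countable) : #(⋃ a ∈ O, f a : Set (ℕ → Bool)) < 𝔠 := by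
  rw [biUnion_eq_iUnion]
  refine lt_of_le_of_lt mk_iUnion_le_sum_mk ?_
  refine lt_of_le_of_lt (sum_le_sum _ (fun _ => ℵ₀) fun a => (hf a).le_aleph0) ?_
  rw [sum_const']
  exact mul_lt_of_lt aleph0_le_continuum hO aleph0_lt_continuum

/-- The data for the recursion. -/
structure Lvl {G : Type} (c : ColSys G) where
  T : Set (Set G)
  S : Set (Set G)
  B : (ℕ → Bool) → Set G
  Free : Set G → (ℕ → Bool) → Prop
  hT : ∀ x y j, x ∈ T → c.Sm (y \ (x ∪ B j)) → y ∈ T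
  hS : ∀ x y j, x ∈ S → c.Sm (x \ (y ∪ B j)) → y ∈ S
  disj : ∀ x, x ∈ T → x ∉ S
  top : Set.univ ∈ S
  bot : ∅ ∈ T
  mid : ∀ I X, I ⊆ X → I ∈ T → X ∈ S → ∃ Z, I ⊆ Z ∧ Z ⊆ X ∧ Z ∉ T ∧ Z ∉ S
  cnt : ∀ Y, {j | ¬ Free Y j}.Countable
  free_inter : ∀ Y i j, Free Y j → i ≠ j → Free (Y ∩ B i) j
  pos_inter : ∀ Y j, Free Y j → ¬ c.Sm Y → ¬ c.Sm (Y ∩ B j)
  pos_diff : ∀ Y j, Free Y j → ¬ c.Sm Y → ¬ c.Sm (Y \ B j)

namespace Lvl

variable {G : Type} {c : ColSys G} (L : Lvl c)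

lemma T_of_le {x y : Set G} (hx : x ∈ L.T) (h : c.Le y x) : y ∈ L.T :=
  L.hT x y (fun _ => true) hx (ColSys.Sm.mono h (sdiff_subset_sdiff_right subset_union_left))

lemma S_of_le {x y : Set G} (hx : x ∈ L.S) (h : c.Le x y) : y ∈ L.S :=
  L.hS x y (fun _ => true) hx (ColSys.Sm.mono h (sdiff_subset_sdiff_right subset_union_left))

lemma core {O : Set (Set G)} (hO : #O < 𝔠) {I X : Set G} (hIX : I ⊆ X) (hI : I ∉ L.S)
    (hX : X ∉ L.T) (h1 : ∀ a ∈ O, ¬ c.Le a I) (h2 : ∀ a ∈ O, ¬ c.Le X a) :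
    ∃ b, I ⊆ b ∧ b ⊆ X ∧ b ∉ L.T ∧ b ∉ L.S ∧ ∀ a ∈ O, ¬ c.Le a b ∧ ¬ c.Le b a := by
  have hZ : ∃ Z, I ⊆ Z ∧ Z ⊆ X ∧ Z ∉ L.T ∧ Z ∉ L.S := by
    by_cases hIT : I ∈ L.T
    · by_cases hXS : X ∈ L.S
      · exact L.mid I X hIX hIT hXS
      · exact ⟨X, hIX, Subset.rfl, hX, hXS⟩
    · exact ⟨I, Subset.rfl, hIX, hIT, hI⟩
  obtain ⟨Z, hIZ, hZX, hZT, hZS⟩ := hZ
  have hbad := mk_biUnion_lt hO (f := fun a => {j | ¬ L.Free (X \ a) j} ∪ {j | ¬ L.Free (a \ I) j})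
    fun a => (L.cnt _).union (L.cnt _)
  obtain ⟨j, hj⟩ := exists_notMem_of_lt hbad
  obtain ⟨j', hj'⟩ := exists_notMem_of_lt (s := insert j _) (lt_of_le_of_lt mk_insert_le
    (add_lt_of_lt aleph0_le_continuum hbad (one_lt_aleph0.trans aleph0_lt_continuum)))
  simp only [mem_insert_iff, mem_iUnion, mem_union, mem_ofPred_eq, not_or, not_exists,
    not_not] at hj hj'
  obtain ⟨hjj, hj'⟩ := hj'
  refine ⟨(Z \ L.B j) ∪ I ∪ (X ∩ L.B j ∩ L.B j'), subset_union_right.trans subset_union_left,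
    union_subset (union_subset (sdiff_subset.trans hZX) hIX)
      (inter_subset_left.trans inter_subset_left), fun h => hZT ?_, fun h => hZS ?_,
    fun a ha => ⟨fun h => ?_, fun h => ?_⟩⟩
  · refine L.hT _ Z j h (c.sm_empty.mono ?_)
    rintro g ⟨hg1, hg2⟩
    exact hg2 (Or.inl (Or.inl (Or.inl ⟨hg1, fun h' => hg2 (Or.inr h')⟩)))
  · refine L.hS _ Z j h (c.sm_empty.mono ?_)
    rintro g ⟨(hg1 | hg1) | hg1, hg2⟩
    · exact hg2 (Or.inl hg1.1)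
    · exact hg2 (Or.inl (hIZ hg1))
    · exact hg2 (Or.inr hg1.1.2)
  · refine L.pos_diff _ j' (L.free_inter _ j j' (hj' a ha).2 (Ne.symm hjj))
      (L.pos_inter _ j (hj a ha).2 (h1 a ha)) (ColSys.Sm.mono h ?_)
    rintro g ⟨⟨⟨hg1, hg2⟩, hg3⟩, hg4⟩
    refine ⟨hg1, ?_⟩
    rintro ((hg5 | hg5) | hg5)
    · exact hg5.2 hg3
    · exact hg2 hg5
    · exact hg4 hg5.2
  · refine L.pos_inter _ j' (L.free_inter _ j j' (hj' a ha).1 (Ne.symm hjj))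
      (L.pos_inter _ j (hj a ha).1 (h2 a ha)) (ColSys.Sm.mono h ?_)
    rintro g ⟨⟨⟨hg1, hg2⟩, hg3⟩, hg4⟩
    exact ⟨Or.inr ⟨⟨hg1, hg3⟩, hg4⟩, hg2⟩

lemma step {O : Set (Set G)} (hO : #O < 𝔠) (hR : ∀ a ∈ O, a ∉ L.T ∧ a ∉ L.S)
    (hanti : ∀ a ∈ O, ∀ b ∈ O, c.Le a b → a = b) (I X : Set G) :
    ∃ b, (b ∉ L.T ∧ b ∉ L.S) ∧ (∀ a ∈ O, (c.Le a b → a = b) ∧ (c.Le b a → b = a)) ∧
      (I ⊆ X → c.Le b I ∨ c.Le X b ∨ (c.Le I b ∧ c.Le b X)) := by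
  have key : ∀ I X : Set G, I ⊆ X → ∃ b, (b ∉ L.T ∧ b ∉ L.S) ∧
      (∀ a ∈ O, (c.Le a b → a = b) ∧ (c.Le b a → b = a)) ∧
      (c.Le b I ∨ c.Le X b ∨ (c.Le I b ∧ c.Le b X)) := by
    intro I X hIX
    by_cases hold : ∃ a ∈ O, c.Le a I ∨ c.Le X a
    · obtain ⟨a, ha, h⟩ := hold
      refine ⟨a, hR a ha, fun a' ha' => ⟨hanti a' ha' a ha, hanti a ha a' ha'⟩, ?_⟩
      rcases h with h | h
      · exact Or.inl h
      · exact Or.inr (Or.inl h)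
    have h1 : ∀ a ∈ O, ¬ c.Le a I := fun a ha h => hold ⟨a, ha, Or.inl h⟩
    have h2 : ∀ a ∈ O, ¬ c.Le X a := fun a ha h => hold ⟨a, ha, Or.inr h⟩
    by_cases hXT : X ∈ L.T
    · obtain ⟨b, hb1, -, hb3, hb4, hb5⟩ := L.core hO (subset_univ X) (L.disj X hXT)
        (fun h => L.disj _ h L.top) (fun a ha h => (hR a ha).1 (L.T_of_le hXT h))
        (fun a ha h => (hR a ha).2 (L.S_of_le L.top h))
      exact ⟨b, ⟨hb3, hb4⟩, fun a ha => ⟨fun h => absurd h (hb5 a ha).1,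
        fun h => absurd h (hb5 a ha).2⟩, Or.inr (Or.inl (c.le_of_subset hb1))⟩
    by_cases hIS : I ∈ L.S
    · obtain ⟨b, -, hb2, hb3, hb4, hb5⟩ := L.core hO (empty_subset I) (L.disj _ L.bot)
        (fun h => L.disj _ h hIS) (fun a ha h => (hR a ha).1 (L.T_of_le L.bot h))
        (fun a ha h => (hR a ha).2 (L.S_of_le hIS h))
      exact ⟨b, ⟨hb3, hb4⟩, fun a ha => ⟨fun h => absurd h (hb5 a ha).1,
        fun h => absurd h (hb5 a ha).2⟩, Or.inl (c.le_of_subset hb2)⟩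
    obtain ⟨b, hb1, hb2, hb3, hb4, hb5⟩ := L.core hO hIX hIS hXT h1 h2
    exact ⟨b, ⟨hb3, hb4⟩, fun a ha => ⟨fun h => absurd h (hb5 a ha).1,
      fun h => absurd h (hb5 a ha).2⟩, Or.inr (Or.inr ⟨c.le_of_subset hb1, c.le_of_subset hb2⟩)⟩
  by_cases hIX : I ⊆ X
  · obtain ⟨b, h1, h2, h3⟩ := key I X hIX
    exact ⟨b, h1, h2, fun _ => h3⟩
  · obtain ⟨b, h1, h2, -⟩ := key ∅ ∅ Subset.rfl
    exact ⟨b, h1, h2, fun h => absurd h hIX⟩

theorem exists_antichain : ∃ A : Set (Set G), (∀ a ∈ A, a ∉ L.T ∧ a ∉ L.S) ∧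
    (∀ a ∈ A, ∀ b ∈ A, c.Le a b → a = b) ∧
    ∀ I X : Set G, I ⊆ X → ∃ a ∈ A, c.Le a I ∨ c.Le X a ∨ (c.Le I a ∧ c.Le a X) := by
  have hG : #G ≤ ℵ₀ := by
    have : Countable G := c.enc_inj.countable
    exact mk_le_aleph0
  have hcard : #(Set G × Set G) ≤ #((𝔠 : Cardinal.{0}).ord.ToType) := by
    have h1 : #(Set G) ≤ 𝔠 := by
      rw [mk_set, ← two_power_aleph0]
      exact power_le_power_left two_ne_zero hG
    rw [mk_ord_toType, mk_prod, lift_id]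
    exact (mul_le_mul' h1 h1).trans (by simp)
  obtain ⟨emb⟩ := (le_def _ _).1 hcard
  let p := Function.invFun emb
  have hp : Function.Surjective p := Function.invFun_surjective emb.injective
  obtain ⟨f, hf⟩ := exists_rec (K := (𝔠 : Cardinal.{0}).ord.ToType) (T := Set G)
    (fun k O b => (b ∉ L.T ∧ b ∉ L.S) ∧ (∀ a ∈ O, (c.Le a b → a = b) ∧ (c.Le b a → b = a)) ∧
      ((p k).1 ⊆ (p k).2 → c.Le b (p k).1 ∨ c.Le (p k).2 b ∨ (c.Le (p k).1 b ∧ c.Le b (p k).2)))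
    (by
      intro k f ih
      refine L.step (lt_of_le_of_lt mk_image_le (by simpa using mk_Iio_lt k)) ?_ ?_ _ _
      · rintro _ ⟨l, hl, rfl⟩
        exact (ih l hl).1
      · rintro _ ⟨l, hl, rfl⟩ _ ⟨l', hl', rfl⟩ h
        rcases lt_trichotomy l l' with h' | rfl | h'
        · exact ((ih l' hl').2.1 _ ⟨l, h', rfl⟩).1 h
        · rfl
        · exact ((ih l hl).2.1 _ ⟨l', h', rfl⟩).2 h)
  refine ⟨range f, ?_, ?_, ?_⟩
  · rintro _ ⟨k, rfl⟩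
    exact (hf k).1
  · rintro _ ⟨l, rfl⟩ _ ⟨l', rfl⟩ h
    rcases lt_trichotomy l l' with h' | rfl | h'
    · exact ((hf l').2.1 _ ⟨l, h', rfl⟩).1 h
    · rfl
    · exact ((hf l).2.1 _ ⟨l', h', rfl⟩).2 h
  · intro I X hIX
    obtain ⟨k, hk⟩ := hp (I, X)
    have := (hf k).2.2
    rw [hk] at this
    exact ⟨f k, mem_range_self k, this hIX⟩

/-- The uniform matroid all of whose bases avoid `T` and `S`. -/
theorem exists_matroid : ∃ U : Matroid G, U.E = Set.univ ∧ (∀ X, U.Indep X ∨ U.Spanning X) ∧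
    (∀ x, U.Indep x → x ∉ L.S) ∧ (∀ x, U.Spanning x → x ∉ L.T) := by
  obtain ⟨A, h1, h2, h3⟩ := L.exists_antichain
  obtain ⟨U, hU1, hU2, hU3, hU4⟩ := c.exists_uniform A h2 h3
    fun a ha h => (h1 a ha).1 (L.T_of_le L.bot (by simpa [ColSys.Le] using h))
  refine ⟨U, hU1, hU2, fun x hx h => ?_, fun x hx h => ?_⟩
  · obtain ⟨a, ha, h'⟩ := hU3 x hx
    exact (h1 a ha).2 (L.S_of_le h h')
  · obtain ⟨a, ha, h'⟩ := hU4 x hx
    exact (h1 a ha).1 (L.T_of_le h h')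

end Lvl

end Vale.Agent.P068
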