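import Vale.Agent.P068.Measure
import Vale.Agent.P068.Level1

/-!
The concrete column systems, the two chains of ideals, and the vertex matroid.
-/

namespace Vale.Agent.P068

open Set Filter Topology
open scoped Cardinal

/-- The edge bundle. -/
abbrev EE : Type := ℕ × Om

def slice (S : Set EE) (i : ℕ) : Set Om := {w | (i, w) ∈ S}

lemma slice_finite {S : Set EE} {i : ℕ} (h : (S ∩ {g | g.1 = i}).Finite) : (slice S i).Finite :=
  (h.preimage (f := fun w : Om => (i, w)) (fun _ _ _ _ h => (Prod.mk.inj h).2)).subset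
    fun _ hw => ⟨hw, rfl⟩

noncomputable def cE : ColSys EE where
  col := Prod.fst
  enc := (exists_injective_nat EE).choose
  enc_inj := (exists_injective_nat EE).choose_spec
  mu S i := mu (slice S i)
  nonneg _ _ := mu_nonneg _
  le_two _ _ := (mu_le_one _).trans one_le_two
  union S T i h := mu_union (S := slice S i) (T := slice T i)
    (disjoint_left.2 fun _ h1 h2 => disjoint_left.1 h h1 h2)
  zero _ _ h := mu_finite (slice_finite h)

/-- The second family of generators is indexed by the first uncountable ordinal. -/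
abbrev WW : Type := (Cardinal.aleph 1).ord.ToType

abbrev Idx : Type := (ℕ × XX) ⊕ WW

lemma exists_emb : Nonempty (Idx ↪ XX) := by
  rw [← Cardinal.le_def]
  have h1 : #XX = 𝔠 := by simp
  have h2 : #WW ≤ 𝔠 := by
    rw [Cardinal.mk_ord_toType]; exact Cardinal.aleph_one_le_continuum
  rw [Cardinal.mk_sum, Cardinal.mk_prod, h1]
  simp only [Cardinal.lift_id, Cardinal.mk_nat, Cardinal.aleph0_mul_continuum]
  exact (add_le_add le_rfl h2).trans (by simp)

noncomputable def emb : Idx ↪ XX := exists_emb.some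

def BE (j : Idx) : Set EE := {e | e.2 ∈ gen (emb j)}

def FE (S : Set EE) (j : Idx) : Prop := ∀ i, Free (slice S i) (emb j)

lemma FE_countable (S : Set EE) : {j | ¬ FE S j}.Countable := by
  have := (countable_iUnion fun i => countable_not_free (slice S i)).preimage_of_injOn
    (emb.injective.injOn)
  refine this.mono fun j hj => ?_
  simpa [FE] using hj

lemma FE.inter {S : Set EE} {i j : Idx} (h : FE S j) (hij : i ≠ j) : FE (S ∩ BE i) j :=
  fun k => (h k).inter (emb.injective.ne hij)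

lemma FE.diff {S : Set EE} {i j : Idx} (h : FE S j) (hij : i ≠ j) : FE (S \ BE i) j :=
  fun k => (h k).diff (emb.injective.ne hij)

lemma FE_univ (j : Idx) : FE univ j := fun _ => free_univ _

lemma FE.pos_inter {S : Set EE} {j : Idx} (h : FE S j) (hS : ¬ cE.Sm S) : ¬ cE.Sm (S ∩ BE j) := by
  intro h'
  apply hS
  refine (Summable.mul_left 2 h').congr fun i => ?_
  have : mu (slice (S ∩ BE j) i) = mu (slice S i) / 2 := (h i).mu_inter
  simp only [ColSys.w, cE, this]; ring

lemma FE.pos_diff {S : Set EE} {j : Idx} (h : FE S j) (hS : ¬ cE.Sm S) : ¬ cE.Sm (S \ BE j) := by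
  intro h'
  apply hS
  refine (Summable.mul_left 2 h').congr fun i => ?_
  have : mu (slice (S \ BE j) i) = mu (slice S i) / 2 := (h i).mu_diff
  simp only [ColSys.w, cE, this]; ring

lemma not_sm_univ : ¬ cE.Sm univ := by
  intro h
  apply Real.not_summable_one_div_natCast
  rw [← summable_nat_add_iff 1]
  refine Summable.congr h fun i => ?_
  have : mu (slice univ i) = 1 := mu_univ
  simp [ColSys.w, cE, this]

lemma FE.diff_biUnion {t : Set Idx} (ht : t.Finite) {S : Set EE} {j : Idx} (h : FE S j)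
    (hj : j ∉ t) : FE (S \ ⋃ i ∈ t, BE i) j := by
  induction t, ht using Set.Finite.induction_on with
  | empty => simpa using h
  | @insert i t _ _ ih =>
    rw [biUnion_insert, union_comm, ← Set.sdiff_sdiff]
    exact (ih fun h' => hj (Or.inr h')).diff fun h' => hj (Or.inl h'.symm)

lemma pos_diff_biUnion {t : Set Idx} (ht : t.Finite) {S : Set EE} (h : ∀ j ∈ t, FE S j)
    (hS : ¬ cE.Sm S) : ¬ cE.Sm (S \ ⋃ i ∈ t, BE i) := by
  induction t, ht using Set.Finite.induction_on with
  | empty => simpa using hS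
  | @insert i t hi ht ih =>
    rw [biUnion_insert, union_comm, ← Set.sdiff_sdiff]
    exact ((h i (Or.inl rfl)).diff_biUnion ht hi).pos_diff (ih fun j hj => h j (Or.inr hj))

/-- The ideal generated by the small sets and the generators with index in `P`. -/
def Idl (P : Set Idx) (S : Set EE) : Prop :=
  ∃ t ⊆ P, t.Finite ∧ cE.Sm (S \ ⋃ i ∈ t, BE i)

lemma Idl.mono_idx {P Q : Set Idx} {S : Set EE} (h : Idl P S) (hPQ : P ⊆ Q) : Idl Q S := by
  obtain ⟨t, h1, h2, h3⟩ := h
  exact ⟨t, h1.trans hPQ, h2, h3⟩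

lemma Idl.mono {P : Set Idx} {S T : Set EE} (h : Idl P T) (hST : S ⊆ T) : Idl P S := by
  obtain ⟨t, h1, h2, h3⟩ := h
  exact ⟨t, h1, h2, h3.mono (sdiff_subset_sdiff_left hST)⟩

lemma Idl.union {P : Set Idx} {S T : Set EE} (hS : Idl P S) (hT : Idl P T) : Idl P (S ∪ T) := by
  obtain ⟨t, h1, h2, h3⟩ := hS
  obtain ⟨u, h4, h5, h6⟩ := hT
  refine ⟨t ∪ u, union_subset h1 h4, h2.union h5, (h3.union h6).mono ?_⟩
  rw [biUnion_union]
  rintro g ⟨hg | hg, hg'⟩
  · exact Or.inl ⟨hg, fun h => hg' (Or.inl h)⟩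
  · exact Or.inr ⟨hg, fun h => hg' (Or.inr h)⟩

lemma idl_of_sm (P : Set Idx) {S : Set EE} (h : cE.Sm S) : Idl P S :=
  ⟨∅, empty_subset _, finite_empty, by simpa using h⟩

lemma idl_gen {P : Set Idx} {j : Idx} (h : j ∈ P) : Idl P (BE j) :=
  ⟨{j}, by simpa using h, finite_singleton j, by simpa using cE.sm_empty⟩

lemma not_idl_inter {P : Set Idx} {S : Set EE} {j : Idx} (hS : ¬ Idl P S) (hj : j ∉ P)
    (hf : FE S j) : ¬ Idl P (S ∩ BE j) := by
  rintro ⟨t, h1, h2, h3⟩
  refine (hf.diff_biUnion h2 fun h => hj (h1 h)).pos_inter (fun h => hS ⟨t, h1, h2, h⟩)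
    (h3.mono ?_)
  rintro g ⟨⟨hg1, hg2⟩, hg3⟩
  exact ⟨⟨hg1, hg3⟩, hg2⟩

lemma not_idl_union {P Q : Set Idx} {S : Set EE} (hS : ¬ Idl P S)
    (hf : ∀ j ∈ Q, j ∉ P → FE S j) : ¬ Idl (P ∪ Q) S := by
  rintro ⟨t, h1, h2, h3⟩
  refine pos_diff_biUnion (t := t \ P) (h2.subset sdiff_subset)
    (S := S \ ⋃ i ∈ t ∩ P, BE i) (fun j hj => ?_)
    (fun h => hS ⟨t ∩ P, inter_subset_right, h2.inter_of_left _, h⟩) (h3.mono ?_)
  · exact (hf j ((h1 hj.1).resolve_left hj.2) hj.2).diff_biUnion (h2.inter_of_left _)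
      fun h => hj.2 h.2
  · rintro g ⟨⟨hg1, hg2⟩, hg3⟩
    refine ⟨hg1, fun h => ?_⟩
    obtain ⟨i, hi, hg⟩ := mem_iUnion₂.1 h
    by_cases hiP : i ∈ P
    · exact hg2 (mem_biUnion ⟨hi, hiP⟩ hg)
    · exact hg3 (mem_biUnion ⟨hi, hiP⟩ hg)

def PN (n : ℕ) : Set Idx := Sum.inl '' {p | p.1 ≤ n}

def PA : Set Idx := range Sum.inl

def QW (α : WW) : Set Idx := PA ∪ Sum.inr '' Ici α

lemma PN_subset (n : ℕ) : PN n ⊆ PA := image_subset_range _ _

lemma PN_mono {m n : ℕ} (h : m ≤ n) : PN m ⊆ PN n := image_mono fun _ hp => le_trans hp h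

lemma QW_anti {α β : WW} (h : α ≤ β) : QW β ⊆ QW α :=
  union_subset_union_right _ (image_mono (Ici_subset_Ici.2 h))

lemma Idl.exists_PN {S : Set EE} (h : Idl PA S) : ∃ n, Idl (PN n) S := by
  obtain ⟨t, h1, h2, h3⟩ := h
  obtain ⟨n, hn⟩ := ((h2.preimage Sum.inl_injective.injOn).image Prod.fst).bddAbove
  refine ⟨n, t, fun j hj => ?_, h2, h3⟩
  obtain ⟨p, rfl⟩ := h1 hj
  exact ⟨p, hn (mem_image_of_mem _ hj), rfl⟩

lemma not_idl_univ : ¬ Idl PA univ := by
  have := not_idl_union (P := ∅) (Q := PA) (S := univ) (by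
    rintro ⟨t, h1, -, h3⟩
    obtain rfl := subset_empty_iff.1 h1
    exact not_sm_univ (by simpa using h3)) fun j _ _ => FE_univ j
  simpa using this

lemma exists_free_layer (S : Set EE) (n : ℕ) : ∃ x : XX, FE S (Sum.inl (n, x)) := by
  have h1 := (FE_countable S).preimage_of_injOn (f := fun x : XX => (Sum.inl (n, x) : Idx))
    (fun _ _ _ _ h => by simpa using h)
  obtain ⟨x, hx⟩ := exists_notMem_of_lt (lt_of_le_of_lt h1.le_aleph0 Cardinal.aleph0_lt_continuum)
  exact ⟨x, by simpa using hx⟩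

lemma exists_bound {C : Set WW} (hC : C.Countable) : ∃ α, ∀ β ≥ α, β ∉ C := by
  have h1 : (⋃ c ∈ C, Iic c).Countable := by
    refine hC.biUnion fun c _ => ?_
    rw [← Iio_insert]
    refine Countable.insert c ?_
    rw [← Cardinal.le_aleph0_iff_set_countable, ← Order.lt_succ_iff, Cardinal.succ_aleph0]
    simpa using Cardinal.mk_Iio_lt c
  have h2 : ¬ (univ : Set WW).Countable := by
    rw [← Cardinal.le_aleph0_iff_set_countable, Cardinal.mk_univ, Cardinal.mk_ord_toType, not_le]
    exact Cardinal.aleph0_lt_aleph_one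
  by_contra hcon
  push Not at hcon
  refine h2 (h1.mono fun α _ => ?_)
  obtain ⟨β, h3, h4⟩ := hcon α
  exact mem_biUnion h4 h3

lemma sub_un (A B : Set EE) : B ⊆ A ∪ (B \ A) := by
  rw [union_sdiff_self]; exact subset_union_right

/-- The pairs that are forbidden at a spanning vertex. -/
def TT (A A' : Set EE) : Prop := Idl PA A ∧ ∀ n, Idl (PN n) A' → Idl (PN n) A

/-- The pairs that are forbidden at an independent vertex. -/
def SS (A A' : Set EE) : Prop := ¬ Idl PA A ∧ ∀ α, Idl (QW α) A → Idl (QW α) A'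

lemma TT.of_near {A A' B B' : Set EE} (h : TT A A') (h1 : Idl (PN 0) (B \ A))
    (h2 : Idl (PN 0) (A' \ B')) : TT B B' := by
  refine ⟨(h.1.union (h1.mono_idx (PN_subset 0))).mono (sub_un _ _), fun n hn => ?_⟩
  exact ((h.2 n ((hn.union (h2.mono_idx (PN_mono n.zero_le))).mono
    (sub_un _ _))).union (h1.mono_idx (PN_mono n.zero_le))).mono
    (sub_un _ _)

lemma SS.of_near {A A' B B' : Set EE} (h : SS A A') (h1 : Idl (PN 0) (A \ B))
    (h2 : Idl (PN 0) (B' \ A')) : SS B B' := by
  have hq : ∀ α, PN 0 ⊆ QW α := fun α => (PN_subset 0).trans subset_union_left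
  refine ⟨fun hB => h.1 ((hB.union (h1.mono_idx (PN_subset 0))).mono (sub_un _ _)),
    fun α hα => ?_⟩
  exact ((h.2 α ((hα.union (h1.mono_idx (hq α))).mono (sub_un _ _))).union
    (h2.mono_idx (hq α))).mono (sub_un _ _)

lemma exists_mid {A₁ A₂ A' : Set EE} (h1 : Idl PA A₁) (h2 : ¬ Idl PA A₂) :
    ∃ j, ¬ TT (A₁ ∪ (A₂ ∩ BE j)) A' ∧ ¬ SS (A₁ ∪ (A₂ ∩ BE j)) A' := by
  by_cases h : Idl PA A'
  · obtain ⟨n, hn⟩ := h.exists_PN
    obtain ⟨x, hx⟩ := exists_free_layer A₂ (n + 1)
    refine ⟨Sum.inl (n + 1, x), fun hT => ?_, fun hS => hS.1 ?_⟩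
    · refine not_idl_inter (fun h' => h2 (h'.mono_idx (PN_subset n))) ?_ hx
        ((hT.2 n hn).mono subset_union_right)
      rintro ⟨p, hp, hp'⟩
      obtain rfl := Sum.inl_injective hp'
      simp at hp
    · exact h1.union ((idl_gen (mem_range_self _)).mono inter_subset_right)
  · obtain ⟨α, hα⟩ := exists_bound (((FE_countable A₂).union (FE_countable A')).preimage_of_injOn
      (f := (Sum.inr : WW → Idx)) Sum.inr_injective.injOn)
    simp only [mem_preimage, mem_union, mem_ofPred_eq, not_or, not_not] at hα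
    refine ⟨Sum.inr α, fun hT => ?_, fun hS => ?_⟩
    · exact not_idl_inter h2 (by simp [PA]) (hα α le_rfl).1 (hT.1.mono subset_union_right)
    · refine not_idl_union h ?_ (hS.2 α ((h1.mono_idx subset_union_left).union
        ((idl_gen (Or.inr ⟨α, le_refl α, rfl⟩)).mono inter_subset_right)))
      rintro _ ⟨β, hβ, rfl⟩ -
      exact (hα β hβ).2

/-- The two descent arguments along a ray. -/
lemma ray (a : ℕ → Set EE) (p : ℕ → Prop) (h1 : ∀ n, p n → ¬ TT (a n) (a (n + 1)))
    (h2 : ∀ n, ¬ p n → ¬ SS (a n) (a (n + 1)))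
    (h3 : ∀ n, p n → ¬ p (n + 1) → a (n + 1) = univ)
    (h4 : ∀ n, ¬ p n → p (n + 1) → a (n + 1) = ∅) : p 0 ↔ ¬ Idl PA (a 0) := by
  constructor
  · intro hp hD
    have step : ∀ n, p n ∧ Idl PA (a n) → ∃ k, Idl (PN k) (a (n + 1)) ∧ ¬ Idl (PN k) (a n) := by
      rintro n ⟨hp, hD⟩
      by_contra hcon
      exact h1 n hp ⟨hD, fun k hk => by_contra fun hk' => hcon ⟨k, hk, hk'⟩⟩
    have all : ∀ n, p n ∧ Idl PA (a n) := by
      intro n
      induction n with
      | zero => exact ⟨hp, hD⟩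
      | succ n ih =>
        obtain ⟨k, hk, -⟩ := step n ih
        have hD' := hk.mono_idx (PN_subset k)
        refine ⟨by_contra fun hp' => not_idl_univ ?_, hD'⟩
        rwa [h3 n ih.1 hp'] at hD'
    choose k hk hk' using fun n => step n (all n)
    refine WellFounded.not_rel_apply_succ (r := (· < ·)) k |>.elim fun n hn => hn ?_
    by_contra hle
    exact hk' (n + 1) ((hk n).mono_idx (PN_mono (not_lt.1 hle)))
  · intro hD
    by_contra hp
    have step : ∀ n, ¬ p n ∧ ¬ Idl PA (a n) →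
        ∃ α, Idl (QW α) (a n) ∧ ¬ Idl (QW α) (a (n + 1)) := by
      rintro n ⟨hp, hD⟩
      by_contra hcon
      exact h2 n hp ⟨hD, fun k hk => by_contra fun hk' => hcon ⟨k, hk, hk'⟩⟩
    have all : ∀ n, ¬ p n ∧ ¬ Idl PA (a n) := by
      intro n
      induction n with
      | zero => exact ⟨hp, hD⟩
      | succ n ih =>
        obtain ⟨k, -, hk⟩ := step n ih
        have hD' : ¬ Idl PA (a (n + 1)) := fun h => hk (h.mono_idx subset_union_left)
        refine ⟨fun hp' => hD' ?_, hD'⟩
        rw [h4 n ih.1 hp']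
        exact idl_of_sm _ cE.sm_empty
    choose k hk hk' using fun n => step n (all n)
    refine WellFounded.not_rel_apply_succ (r := (· < ·)) k |>.elim fun n hn => hn ?_
    by_contra hle
    exact hk' n ((hk (n + 1)).mono_idx (QW_anti (not_lt.1 hle)))

/-- The ground set of the vertex matroid: an input copy and an output copy of the bundle. -/
abbrev GG : Type := EE × Bool

def part (x : Set GG) (b : Bool) : Set EE := {e | (e, b) ∈ x}

lemma part_finite {x : Set GG} {i : ℕ} (b : Bool) (h : (x ∩ {g | g.1.1 = i}).Finite) :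
    (part x b ∩ {g | g.1 = i}).Finite :=
  (h.preimage (f := fun e : EE => (e, b)) (fun _ _ _ _ h => (Prod.mk.inj h).1)).subset
    fun _ hw => hw

noncomputable def cG : ColSys GG where
  col g := g.1.1
  enc := (exists_injective_nat GG).choose
  enc_inj := (exists_injective_nat GG).choose_spec
  mu x i := cE.mu (part x false) i + cE.mu (part x true) i
  nonneg x i := add_nonneg (mu_nonneg _) (mu_nonneg _)
  le_two x i := by
    have h1 : cE.mu (part x false) i ≤ 1 := mu_le_one _
    have h2 : cE.mu (part x true) i ≤ 1 := mu_le_one _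
    linarith
  union x y i h := by
    have h1 : ∀ b, cE.mu (part (x ∪ y) b) i = cE.mu (part x b) i + cE.mu (part y b) i :=
      fun b => cE.union (part x b) (part y b) i
        (disjoint_left.2 fun _ h1 h2 => disjoint_left.1 h h1 h2)
    rw [h1, h1]; ring
  zero x i h := by
    rw [cE.zero _ i (part_finite false h), cE.zero _ i (part_finite true h), add_zero]

lemma sm_iff (x : Set GG) : cG.Sm x ↔ cE.Sm (part x false) ∧ cE.Sm (part x true) := by
  have h : ∀ i, cG.w x i = cE.w (part x false) i + cE.w (part x true) i := fun i => by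
    simp only [ColSys.w, cG, add_div]
  constructor
  · intro hx
    exact ⟨Summable.of_nonneg_of_le (cE.w_nonneg _)
        (fun i => by rw [h]; linarith [cE.w_nonneg (part x true) i]) hx,
      Summable.of_nonneg_of_le (cE.w_nonneg _)
        (fun i => by rw [h]; linarith [cE.w_nonneg (part x false) i]) hx⟩
  · rintro ⟨h1, h2⟩
    exact (Summable.add h1 h2).congr fun i => (h i).symm

lemma near {x y : Set GG} {j : XX}
    (h : cG.Sm (y \ (x ∪ {g | g.1 ∈ BE (Sum.inl (0, j))}))) (b : Bool) :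
    Idl (PN 0) (part y b \ part x b) := by
  have h1 : cE.Sm (part (y \ (x ∪ {g | g.1 ∈ BE (Sum.inl (0, j))})) b) := by
    cases b
    · exact ((sm_iff _).1 h).1
    · exact ((sm_iff _).1 h).2
  refine ((idl_of_sm _ h1).union (idl_gen (P := PN 0) (j := Sum.inl (0, j))
    ⟨(0, j), le_refl 0, rfl⟩)).mono ?_
  rintro e ⟨he1, he2⟩
  by_cases he : e ∈ BE (Sum.inl (0, j))
  · exact Or.inr he
  · exact Or.inl ⟨he1, fun h' => h'.elim he2 he⟩

def lvl : Lvl cG where
  T := {x | TT (part x false) (part x true)ᶜ}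
  S := {x | SS (part x false) (part x true)ᶜ}
  B j := {g | g.1 ∈ BE (Sum.inl (0, j))}
  Free x j := ∀ b, FE (part x b) (Sum.inl (0, j))
  hT x y j hx h := TT.of_near hx (near h false) (by rw [compl_sdiff_compl]; exact near h true)
  hS x y j hx h := SS.of_near hx (near h false) (by rw [compl_sdiff_compl]; exact near h true)
  disj x h1 h2 := h2.1 h1.1
  top := ⟨not_idl_univ, fun α _ => (idl_of_sm _ cE.sm_empty).mono fun _ h => h (mem_univ _)⟩
  bot := ⟨idl_of_sm _ cE.sm_empty, fun n _ => idl_of_sm _ cE.sm_empty⟩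
  mid I X hIX hI hX := by
    obtain ⟨j, h1, h2⟩ := exists_mid (A' := (part I true)ᶜ) hI.1 hX.1
    have e1 : part (I ∪ {g | g ∈ X ∧ g.2 = false ∧ g.1 ∈ BE j}) false =
        part I false ∪ (part X false ∩ BE j) := by
      ext e; simp [part]
    have e2 : part (I ∪ {g | g ∈ X ∧ g.2 = false ∧ g.1 ∈ BE j}) true = part I true := by
      ext e; simp [part]
    refine ⟨I ∪ {g | g ∈ X ∧ g.2 = false ∧ g.1 ∈ BE j}, subset_union_left,
      union_subset hIX fun g hg => hg.1, ?_, ?_⟩
    · rw [mem_ofPred_eq, e1, e2]; exact h1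
    · rw [mem_ofPred_eq, e1, e2]; exact h2
  cnt Y := by
    have := (countable_iUnion fun b => FE_countable (part Y b)).preimage_of_injOn
      (f := fun x : XX => (Sum.inl (0, x) : Idx)) (fun _ _ _ _ h => by simpa using h)
    refine this.mono fun j hj => ?_
    simp only [mem_ofPred_eq, not_forall] at hj
    obtain ⟨b, hb⟩ := hj
    exact mem_iUnion.2 ⟨b, hb⟩
  free_inter Y i j h hij b := (h b).inter (by simpa using hij)
  pos_inter Y j h hY h' := by
    rw [sm_iff] at hY h'
    exact hY ⟨by_contra fun h1 => (h false).pos_inter h1 h'.1,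
      by_contra fun h1 => (h true).pos_inter h1 h'.2⟩
  pos_diff Y j h hY h' := by
    rw [sm_iff] at hY h'
    exact hY ⟨by_contra fun h1 => (h false).pos_diff h1 h'.1,
      by_contra fun h1 => (h true).pos_diff h1 h'.2⟩

/-- The vertex matroid. -/
theorem exists_vertex_matroid : ∃ U : Matroid GG, U.E = univ ∧ (∀ X, U.Indep X ∨ U.Spanning X) ∧
    (∀ x, U.Indep x → ¬ SS (part x false) (part x true)ᶜ) ∧
    (∀ x, U.Spanning x → ¬ TT (part x false) (part x true)ᶜ) :=
  lvl.exists_matroid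

end Vale.Agent.P068
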