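import Vale.Agent.P068.Col

/-!
The intermediate value property of the rank sequence `H` on small sets.
-/

namespace Vale.Agent.P068

open Set Filter Topology

namespace ColSys

variable {G : Type} (c : ColSys G)

/-- `H S - a` tends to minus infinity. -/
def Low (a : ℕ → ℝ) (S : Set G) : Prop := ∀ C : ℝ, ∀ᶠ m in atTop, c.H S m + C ≤ a m

/-- `H S - a` is eventually bounded above. -/
def Bdd (a : ℕ → ℝ) (S : Set G) : Prop := ∃ C : ℝ, ∀ᶠ m in atTop, c.H S m ≤ a m + C

variable {c} in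
lemma Low.mono {a : ℕ → ℝ} {S T : Set G} (h : c.Low a T) (hT : c.Sm T) (hST : S ⊆ T) :
    c.Low a S := fun C => (h C).mono fun m hm => by linarith [c.H_mono hT hST m]

/-- Greedy step: across a set that is finite in all columns but one there is a middle set. -/
lemma greedy (a : ℕ → ℝ) {S₀ S₁ : Set G} (hS : S₀ ⊆ S₁) (hS₁ : c.Sm S₁) {i : ℕ}
    (hfin : ∀ j, j ≠ i → ((S₁ \ S₀) ∩ {g | c.col g = j}).Finite)
    (h0 : c.Low a S₀) (h1 : ¬ c.Low a S₁) :
    ∃ S, S₀ ⊆ S ∧ S ⊆ S₁ ∧ c.Bdd a S ∧ ¬ c.Low a S := by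
  obtain ⟨m₀, hm₀⟩ := eventually_atTop.1 (h0 0)
  let fam : Set (Set G) := {T | T ⊆ S₁ \ S₀ ∧ ∀ m ≥ m₀, c.H S₀ m + c.cnt T m ≤ a m}
  have hchar : Order.IsOfFiniteCharacter fam := by
    intro T
    constructor
    · rintro ⟨hT1, hT2⟩ U hU -
      refine ⟨hU.trans hT1, fun m hm => ?_⟩
      have : (c.cnt U m : ℝ) ≤ c.cnt T m := by exact_mod_cast c.cnt_mono hU m
      linarith [hT2 m hm]
    · intro h
      refine ⟨fun g hg => (h {g} (by simpa using hg) (finite_singleton g)).1 rfl, fun m hm => ?_⟩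
      have := (h (T ∩ c.F m) inter_subset_left ((c.F_finite m).inter_of_right _)).2 m hm
      unfold cnt at this ⊢
      rwa [inter_assoc, inter_self] at this
  have hemp : (∅ : Set G) ∈ fam := by
    refine ⟨empty_subset _, fun m hm => ?_⟩
    have := hm₀ m hm
    simpa [cnt] using this
  obtain ⟨T, -, hT⟩ := hchar.exists_maximal hemp
  obtain ⟨hT1, hT2⟩ := hT.prop
  have hS₀ : c.Sm S₀ := hS₁.mono hS
  have hTs : c.Sm T := hS₁.mono (hT1.trans sdiff_subset)
  have hdisj : Disjoint S₀ T := disjoint_left.2 fun g hg hg' => (hT1 hg').2 hg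
  refine ⟨S₀ ∪ T, subset_union_left, union_subset hS (hT1.trans sdiff_subset), ?_, ?_⟩
  · refine ⟨2, eventually_atTop.2 ⟨m₀, fun m hm => ?_⟩⟩
    rw [c.H_union hS₀ hTs hdisj]
    have := c.H_le_cnt_add_two (S := T) (i := i)
      (fun j hj => (hfin j hj).subset (inter_subset_inter_left _ hT1)) m
    linarith [hT2 m hm]
  · intro hlow
    apply h1
    obtain ⟨m₁, hm₁⟩ := eventually_atTop.1 (hlow 1)
    have hsub : S₁ ⊆ (S₀ ∪ T) ∪ c.F m₁ := by
      intro e he
      by_contra hne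
      simp only [mem_union, not_or] at hne
      obtain ⟨⟨he0, heT⟩, heF⟩ := hne
      have hmem : T ∪ {e} ∈ fam := by
        refine ⟨union_subset hT1 (by simp [he, he0]), fun m hm => ?_⟩
        rw [c.cnt_union (by simpa using heT)]
        by_cases hmm : m₁ ≤ m
        · have h2 := hm₁ m hmm
          rw [c.H_union hS₀ hTs hdisj] at h2
          have h3 : c.cnt {e} m ≤ 1 := by
            have := ncard_le_ncard (inter_subset_left : {e} ∩ c.F m ⊆ {e}) (finite_singleton e)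
            simpa [cnt] using this
          have h4 : (c.cnt {e} m : ℝ) ≤ 1 := by exact_mod_cast h3
          push_cast
          linarith [c.cnt_le_H T m]
        · rw [c.cnt_zero (S := {e}) (by
            rw [disjoint_singleton_left]
            exact fun h => heF (c.F_mono (by omega) h))]
          simpa using hT2 m hm
      exact heT (hT.le_of_ge hmem subset_union_left (by simp))
    intro C
    filter_upwards [hlow (C + (c.F m₁).ncard)] with m hm
    have h2 := c.H_le_of_subset_union (hS₀.union hTs) (c.sm_of_finite (c.F_finite m₁)) hsub m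
    have h3 := c.H_finite_le (c.F_finite m₁) m
    linarith

section NoMiddle

variable {c} {a : ℕ → ℝ} {Y : Set G}

lemma low_of_colfin (hY : c.Sm Y) (hno : ∀ S ⊆ Y, c.Bdd a S → c.Low a S) {S₀ S₁ : Set G}
    (hS : S₀ ⊆ S₁) (hS₁ : S₁ ⊆ Y) {i : ℕ}
    (hfin : ∀ j, j ≠ i → ((S₁ \ S₀) ∩ {g | c.col g = j}).Finite) (h0 : c.Low a S₀) :
    c.Low a S₁ := by
  by_contra h1
  obtain ⟨S, -, h2, h3, h4⟩ := c.greedy a hS (hY.mono hS₁) hfin h0 h1
  exact h4 (hno S (h2.trans hS₁) h3)

lemma low_union_cols (hY : c.Sm Y) (hno : ∀ S ⊆ Y, c.Bdd a S → c.Low a S) {S : Set G}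
    (hS : S ⊆ Y) (h0 : c.Low a S) (n : ℕ) : c.Low a (S ∪ (Y ∩ {g | c.col g < n})) := by
  induction n with
  | zero => simpa using h0
  | succ n ih =>
    refine low_of_colfin hY hno (i := n) ?_ (union_subset hS inter_subset_left) ?_ ih
    · exact union_subset_union_right _ (inter_subset_inter_right _ fun g hg => Nat.lt_succ_of_lt hg)
    · intro j hj
      convert finite_empty
      ext g
      simp only [mem_inter_iff, Set.mem_sdiff, mem_union, mem_ofPred_eq, mem_empty_iff_false,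
        iff_false, not_and]
      rintro ⟨h1 | ⟨h1, h2⟩, h3⟩ h4
      · exact h3 (Or.inl h1)
      · exact h3 (Or.inr ⟨h1, by omega⟩)

/-- The invariant of the stage construction. -/
def Inv (c : ColSys G) (a : ℕ → ℝ) (Y : Set G) (s : ℕ × ℕ × Set G) : Prop :=
  s.2.2 ⊆ Y ∩ {g | c.col g < s.1} ∧ (∀ m > s.2.1, c.H s.2.2 m ≤ a m) ∧
    ∀ m ≤ s.2.1, c.H (Y ∩ {g | s.1 ≤ c.col g}) m ≤ 1

/-- The relation between consecutive stages. -/
def Rel (c : ColSys G) (a : ℕ → ℝ) (s s' : ℕ × ℕ × Set G) (R : Set G) : Prop :=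
  s.1 < s'.1 ∧ s.2.1 < s'.2.1 ∧ s.2.2 ⊆ s'.2.2 ∧ s'.2.2 ⊆ s.2.2 ∪ {g | s.1 ≤ c.col g} ∧
    (∃ m > s.2.1, a m < c.H s'.2.2 m) ∧ R.Finite ∧ R ⊆ {g | s.1 ≤ c.col g} ∧
    ∀ m > s.2.1, c.H (s'.2.2 \ R) m ≤ a m + 2

lemma stage (hY : c.Sm Y) (hno : ∀ S ⊆ Y, c.Bdd a S → c.Low a S) (h0 : c.Low a ∅)
    (h1 : ¬ c.Low a Y) (s : ℕ × ℕ × Set G) (hs : Inv c a Y s) :
    ∃ s' R, Inv c a Y s' ∧ Rel c a s s' R := by
  classical
  obtain ⟨n, M, V⟩ := s
  obtain ⟨hV, hM, -⟩ := hs
  simp only at hV hM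
  have hlow : ∀ k, c.Low a (Y ∩ {g | c.col g < k}) := fun k => by
    simpa using low_union_cols hY hno (empty_subset Y) h0 k
  have hnb : ¬ c.Bdd a (Y ∩ {g | n ≤ c.col g}) := by
    intro hb
    have h2 := low_union_cols hY hno inter_subset_left (hno _ inter_subset_left hb) n
    apply h1
    convert h2 using 1
    ext g
    simp only [mem_union, mem_inter_iff, mem_ofPred_eq]
    by_cases hg : n ≤ c.col g
    · simp [hg]
    · simp [hg, not_le.1 hg]
  let blk : ℕ → Set G := fun j => V ∪ (Y ∩ {g | n ≤ c.col g ∧ c.col g < j})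
  have hblkY : ∀ j, blk j ⊆ Y := fun j =>
    union_subset (hV.trans inter_subset_left) inter_subset_left
  have hex : ∃ j, ∃ m > M, a m < c.H (blk j) m := by
    have h2 : ∃ᶠ m in atTop, ¬ c.H (Y ∩ {g | n ≤ c.col g}) m ≤ a m + 1 := by
      rw [← not_eventually]
      exact fun h => hnb ⟨1, h⟩
    obtain ⟨m, hm, hm'⟩ := (h2.and_eventually (eventually_gt_atTop M)).exists
    obtain ⟨j, hj⟩ := c.far_small hY m
    refine ⟨j, m, hm', ?_⟩
    have h3 := hj j le_rfl m le_rfl
    have h4 := c.H_le_of_subset_union (R := Y ∩ {g | n ≤ c.col g}) (hY.mono (hblkY j))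
      (hY.mono (inter_subset_left : Y ∩ {g | j ≤ c.col g} ⊆ Y)) (by
        rintro g ⟨hg1, hg2⟩
        by_cases hg : j ≤ c.col g
        · exact Or.inr ⟨hg1, hg⟩
        · exact Or.inl (Or.inr ⟨hg1, hg2, not_le.1 hg⟩)) m
    linarith [not_le.1 hm]
  have hj₀ : n < Nat.find hex := by
    by_contra hle
    obtain ⟨m, hm, hm'⟩ := Nat.find_spec hex
    have : blk (Nat.find hex) ⊆ V := by
      rintro g (hg | ⟨-, hg1, hg2⟩)
      · exact hg
      · omega
    linarith [hM m hm, c.H_mono (hY.mono (hV.trans inter_subset_left)) this m]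
  obtain ⟨i, hi⟩ : ∃ i, Nat.find hex = i + 1 := ⟨Nat.find hex - 1, by omega⟩
  have hP := Nat.find_spec hex
  rw [hi] at hP hj₀
  have hnP : ∀ m > M, c.H (blk i) m ≤ a m := by
    intro m hm
    by_contra hlt
    exact Nat.find_min hex (m := i) (by omega) ⟨m, hm, not_le.1 hlt⟩
  have hsub : blk (i + 1) ⊆ Y ∩ {g | c.col g < i + 1} := by
    rintro g (hg | ⟨hg1, -, hg2⟩)
    · exact ⟨(hV hg).1, lt_trans (hV hg).2 hj₀⟩
    · exact ⟨hg1, hg2⟩
  obtain ⟨p, hp⟩ := eventually_atTop.1 (((hlow (i + 1)).mono (hY.mono inter_subset_left) hsub) 0)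
  obtain ⟨n₀, hn₀⟩ := c.far_small hY (max p (M + 1))
  refine ⟨(max n₀ (i + 1), max p (M + 1), blk (i + 1)), c.F p ∩ {g | n ≤ c.col g}, ⟨?_, ?_, ?_⟩,
    ?_, ?_, ?_, ?_, hP, (c.F_finite p).inter_of_left _, inter_subset_right, ?_⟩
  · refine hsub.trans (inter_subset_inter_right _ fun g hg => ?_)
    exact lt_of_lt_of_le (show c.col g < i + 1 from hg) (le_max_right n₀ (i + 1))
  · intro m hm
    have := hp m (le_trans (le_max_left _ _) (le_of_lt hm))
    simpa using this
  · exact fun m hm => hn₀ _ (le_max_left _ _) m hm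
  · exact lt_of_lt_of_le hj₀ (le_max_right _ _)
  · exact lt_of_lt_of_le (Nat.lt_succ_self M) (le_max_right _ _)
  · exact subset_union_left
  · exact union_subset_union_right _ fun g hg => hg.2.1
  · intro m hm
    simp only at hm ⊢
    by_cases hmp : p ≤ m
    · have h2 := hp m hmp
      have h3 := c.H_mono (hY.mono (hblkY (i + 1)))
        (sdiff_subset : blk (i + 1) \ (c.F p ∩ {g | n ≤ c.col g}) ⊆ _) m
      linarith
    · have h2 := c.H_le_of_subset_union (R := blk (i + 1) \ (c.F p ∩ {g | n ≤ c.col g}))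
        (T := (Y ∩ {g | c.col g = i}) \ c.F p) (hY.mono (hblkY i))
        (hY.mono (sdiff_subset.trans inter_subset_left)) (by
          rintro g ⟨hg | ⟨hg1, hg2, hg3⟩, hg4⟩
          · exact Or.inl (Or.inl hg)
          · by_cases hg : c.col g < i
            · exact Or.inl (Or.inr ⟨hg1, hg2, hg⟩)
            · exact Or.inr ⟨⟨hg1, by simp only [mem_ofPred_eq]; omega⟩, fun h => hg4 ⟨h, hg2⟩⟩) m
      have h3 := c.H_le_cnt_add_two (S := (Y ∩ {g | c.col g = i}) \ c.F p) (i := i) (by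
        intro j hj
        convert finite_empty
        ext g
        simp only [mem_inter_iff, Set.mem_sdiff, mem_ofPred_eq, mem_empty_iff_false, iff_false,
          not_and]
        rintro ⟨⟨-, h⟩, -⟩ h'
        exact hj (h'.symm.trans h)) m
      rw [c.cnt_zero (disjoint_left.2 fun g hg hg' => hg.2 (c.F_mono (by omega) hg'))] at h3
      have h4 := hnP m hm
      simp only [Nat.cast_zero, zero_add] at h3
      linarith

end NoMiddle

/-- The intermediate value property. -/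
lemma exists_middle (a : ℕ → ℝ) {Y : Set G} (hY : c.Sm Y) (h0 : c.Bdd a ∅) (h1 : ¬ c.Low a Y) :
    ∃ S ⊆ Y, c.Bdd a S ∧ ¬ c.Low a S := by
  by_contra hcon
  have hno : ∀ S ⊆ Y, c.Bdd a S → c.Low a S := by
    intro S hS hb
    by_contra hl
    exact hcon ⟨S, hS, hb, hl⟩
  have hl0 : c.Low a ∅ := hno ∅ (empty_subset Y) h0
  obtain ⟨M₀, hM₀⟩ := eventually_atTop.1 (hl0 0)
  obtain ⟨n₀, hn₀⟩ := c.far_small hY M₀
  have hinit : Inv c a Y (n₀, M₀, ∅) :=
    ⟨empty_subset _, fun m hm => by simpa using hM₀ m (le_of_lt hm), hn₀ n₀ le_rfl⟩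
  choose nx Rx hinv hrel using stage hY hno hl0 h1
  let f : ℕ → {s // Inv c a Y s} := fun k =>
    Nat.rec ⟨_, hinit⟩ (fun _ s => ⟨nx s.1 s.2, hinv s.1 s.2⟩) k
  let n : ℕ → ℕ := fun k => (f k).1.1
  let M : ℕ → ℕ := fun k => (f k).1.2.1
  let V : ℕ → Set G := fun k => (f k).1.2.2
  let R : ℕ → Set G := fun k => Rx (f k).1 (f k).2
  have hr : ∀ k, n k < n (k + 1) ∧ M k < M (k + 1) ∧ V k ⊆ V (k + 1) ∧
      V (k + 1) ⊆ V k ∪ {g | n k ≤ c.col g} ∧ (∃ m > M k, a m < c.H (V (k + 1)) m) ∧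
      (R k).Finite ∧ R k ⊆ {g | n k ≤ c.col g} ∧
      ∀ m > M k, c.H (V (k + 1) \ R k) m ≤ a m + 2 := fun k => hrel (f k).1 (f k).2
  have hi : ∀ k, V k ⊆ Y ∩ {g | c.col g < n k} ∧ (∀ m > M k, c.H (V k) m ≤ a m) ∧
    ∀ m ≤ M k, c.H (Y ∩ {g | n k ≤ c.col g}) m ≤ 1 := fun k => (f k).2
  have hnm : StrictMono n := strictMono_nat_of_lt_succ fun k => (hr k).1
  have hMm : StrictMono M := strictMono_nat_of_lt_succ fun k => (hr k).2.1
  have hVm : Monotone V := monotone_nat_of_le_succ fun k => (hr k).2.2.1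
  have hVY : (⋃ k, V k) ⊆ Y := iUnion_subset fun k => (hi k).1.trans inter_subset_left
  have hlater : ∀ k l, V (k + l) ⊆ V k ∪ {g | n k ≤ c.col g} := by
    intro k l
    induction l with
    | zero => exact subset_union_left
    | succ l ih =>
      intro g hg
      rcases (hr (k + l)).2.2.2.1 hg with h | h
      · exact ih h
      · exact Or.inr (le_trans (hnm.monotone (Nat.le_add_right k l)) h)
  have hT : c.Bdd a ((⋃ k, V k) \ ⋃ k, R k) := by
    refine ⟨3, ?_⟩
    filter_upwards [eventually_gt_atTop (M 0)] with m hm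
    have hex : ∃ k, m ≤ M (k + 1) := ⟨m, le_trans (Nat.le_succ m) (hMm.le_apply)⟩
    classical
    set k := Nat.find hex with hk
    have hk1 : m ≤ M (k + 1) := Nat.find_spec hex
    have hk2 : M k < m := by
      rcases hk0 : k with _ | k'
      · exact hm
      · have := Nat.find_min hex (m := k') (by omega)
        omega
    have h2 := c.H_le_of_subset_union (R := (⋃ k, V k) \ ⋃ k, R k) (S := V (k + 1) \ R k)
      (T := Y ∩ {g | n (k + 1) ≤ c.col g})
      (hY.mono (sdiff_subset.trans ((hi (k + 1)).1.trans inter_subset_left)))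
      (hY.mono inter_subset_left) (by
        rintro g ⟨hg1, hg2⟩
        obtain ⟨l, hl⟩ := mem_iUnion.1 hg1
        rcases hlater (k + 1) l (hVm (Nat.le_add_left l (k + 1)) hl) with h | h
        · exact Or.inl ⟨h, fun h' => hg2 (mem_iUnion.2 ⟨k, h'⟩)⟩
        · exact Or.inr ⟨hVY hg1, h⟩) m
    linarith [(hr k).2.2.2.2.2.2.2 m hk2, (hi (k + 1)).2.2 m hk1]
  have hlowV : c.Low a (⋃ k, V k) := by
    refine low_of_colfin hY hno sdiff_subset hVY (i := 0) (fun j _ => ?_)
      (hno _ (sdiff_subset.trans hVY) hT)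
    refine ((finite_le_nat j).biUnion fun k _ => (hr k).2.2.2.2.2.1).subset ?_
    rintro g ⟨⟨hg1, hg2⟩, hg3⟩
    have hg4 : g ∈ ⋃ k, R k := by
      by_contra h
      exact hg2 ⟨hg1, h⟩
    obtain ⟨k, hk⟩ := mem_iUnion.1 hg4
    have h5 : n k ≤ c.col g := (hr k).2.2.2.2.2.2.1 hk
    have h6 : k ≤ n k := hnm.le_apply
    simp only [mem_ofPred_eq] at hg3
    exact mem_biUnion (show k ≤ j by omega) hk
  obtain ⟨m₁, hm₁⟩ := eventually_atTop.1 (hlowV 0)
  obtain ⟨m, hm, hm'⟩ := (hr m₁).2.2.2.2.1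
  have h7 : m₁ ≤ M m₁ := hMm.le_apply
  have h8 := hm₁ m (by omega)
  have h9 := c.H_mono (hY.mono hVY) (subset_iUnion V (m₁ + 1)) m
  linarith

/-- `H S ≤ a` eventually. -/
def Good (a : ℕ → ℝ) (S : Set G) : Prop := ∀ᶠ m in atTop, c.H S m ≤ a m

lemma good_insert_iff (a : ℕ → ℝ) {S : Set G} (hS : c.Sm S) {e : G} (he : e ∉ S) :
    c.Good a (insert e S) ↔ ∀ᶠ m in atTop, c.H S m + 1 ≤ a m := by
  apply eventually_congr
  filter_upwards [c.H_finite_eventually (finite_singleton e)] with m hm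
  rw [insert_eq, c.H_union (c.sm_of_finite (finite_singleton e)) hS (by simpa using he), hm]
  simp [add_comm]

lemma exists_jump (a : ℕ → ℝ) {R : Set G} (hR : R.Finite) :
    ∀ S : Set G, c.Sm S → c.Good a S → ¬ c.Good a (S ∪ R) →
      ∃ S', S' ⊆ S ∪ R ∧ c.Good a S' ∧ ∀ e ∉ S', ¬ c.Good a (insert e S') := by
  induction R, hR using Set.Finite.induction_on with
  | empty => intro S _ h1 h2; exact absurd (by simpa using h1) h2
  | @insert r R hr hR ih =>
    intro S hS h1 h2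
    by_cases h3 : c.Good a (S ∪ R)
    · refine ⟨S ∪ R, union_subset_union_right _ (subset_insert _ _), h3, fun e he h4 => h2 ?_⟩
      have hSR : c.Sm (S ∪ R) := hS.union (c.sm_of_finite hR)
      rw [union_insert]
      by_cases hr' : r ∈ S ∪ R
      · rwa [insert_eq_of_mem hr']
      · rw [c.good_insert_iff a hSR hr']
        rwa [c.good_insert_iff a hSR he] at h4
    · obtain ⟨S', h4, h5⟩ := ih S hS h1 h3
      exact ⟨S', h4.trans (union_subset_union_right _ (subset_insert _ _)), h5⟩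

/-- Between a good set and a set that is not good there is a tight good set. -/
lemma exists_tight (a : ℕ → ℝ) {Y : Set G} (hY : c.Sm Y) (h0 : c.Good a ∅) (h1 : ¬ c.Good a Y) :
    ∃ S ⊆ Y, c.Good a S ∧ ∀ e ∉ S, ¬ c.Good a (insert e S) := by
  obtain ⟨S, hSY, ⟨C, hC⟩, hl⟩ := c.exists_middle a hY ⟨0, by simpa [Good] using h0⟩
    (fun h => h1 (by simpa [Good] using h 0))
  have hS : c.Sm S := hY.mono hSY
  by_cases hg : c.Good a S
  · have : ∃ R ⊆ Y, R.Finite ∧ ¬ c.Good a (S ∪ R) := by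
      by_cases hfin : (Y \ S).Finite
      · exact ⟨Y \ S, sdiff_subset, hfin, by rwa [union_sdiff_cancel hSY]⟩
      · simp only [Low, not_forall] at hl
        obtain ⟨D, hD⟩ := hl
        obtain ⟨N, hN⟩ := exists_nat_ge D
        obtain ⟨R, hR1, hR2, hR3⟩ := Set.Infinite.exists_subset_ncard_eq hfin N
        refine ⟨R, hR1.trans sdiff_subset, hR2, fun h => hD ?_⟩
        filter_upwards [h, c.H_finite_eventually hR2] with m hm hm'
        rw [c.H_union hS (c.sm_of_finite hR2)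
          (disjoint_left.2 fun g hg hg' => (hR1 hg').2 hg), hm', hR3] at hm
        linarith
    obtain ⟨R, hR1, hR2, hR3⟩ := this
    obtain ⟨S', h2, h3⟩ := c.exists_jump a hR2 S hS hg hR3
    exact ⟨S', h2.trans (union_subset hSY hR1), h3⟩
  · have : ∃ R ⊆ S, R.Finite ∧ c.Good a (S \ R) := by
      by_cases hfin : S.Finite
      · exact ⟨S, Subset.rfl, hfin, by simpa using h0⟩
      · obtain ⟨N, hN⟩ := exists_nat_ge C
        obtain ⟨R, hR1, hR2, hR3⟩ := Set.Infinite.exists_subset_ncard_eq hfin N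
        refine ⟨R, hR1, hR2, ?_⟩
        filter_upwards [hC, c.H_finite_eventually hR2] with m hm hm'
        have := c.H_union (hS.mono (sdiff_subset : S \ R ⊆ S)) (c.sm_of_finite hR2)
          disjoint_sdiff_left m
        rw [sdiff_union_of_subset hR1, hm', hR3] at this
        linarith
    obtain ⟨R, hR1, hR2, hR3⟩ := this
    obtain ⟨S', h2, h3⟩ := c.exists_jump a hR2 (S \ R) (hS.mono sdiff_subset) hR3
      (by rwa [sdiff_union_of_subset hR1])
    rw [sdiff_union_of_subset hR1] at h2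
    exact ⟨S', h2.trans hSY, h3⟩

end ColSys

end Vale.Agent.P068
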