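import Vale.Agent.P068.Defs

/-!
Direct sums of uniform matroids along the vertices of a bipartite multigraph: a packing/covering
partition, or a witness for intersection, gives an orientation.
-/

namespace Vale.Agent.P068

open Set

variable {α G V : Type}

structure IsSum (M : Matroid α) (W : V → Matroid G) (f : V → G → α) (s : V → Prop) : Prop where
  ground : M.E = univ
  wground : ∀ v, (W v).E = univ
  unif : ∀ v X, (W v).Indep X ∨ (W v).Spanning X
  inj : ∀ v w g g', s v → s w → f v g = f w g' → v = w ∧ g = g'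
  indep : ∀ I, M.Indep I ↔ ∀ v, s v → (W v).Indep (f v ⁻¹' I)

lemma exists_isSum (W : V → Matroid G) (f : V → G → α) (s : V → Prop)
    (wground : ∀ v, (W v).E = univ) (unif : ∀ v X, (W v).Indep X ∨ (W v).Spanning X)
    (inj : ∀ v w g g', s v → s w → f v g = f w g' → v = w ∧ g = g')
    (surj : ∀ a, ∃ v g, s v ∧ f v g = a) : ∃ M, IsSum M W f s ∧ IsPartitional M := by
  let e : (v : {v // s v}) → G ↪ α := fun v => ⟨f v, fun g g' h => (inj _ _ _ _ v.2 v.2 h).2⟩
  let U : {v // s v} → Matroid α := fun v => (W v).mapEmbedding (e v)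
  have hE : ∀ v, (U v).E = range (f v) := fun v => by
    simp only [U, Matroid.mapEmbedding_ground_eq, wground, image_univ]; rfl
  have hdisj : Pairwise (Function.onFun Disjoint fun v => (U v).E) := by
    intro v w hvw
    simp only [Function.onFun, hE]
    rw [disjoint_left]
    rintro _ ⟨g, rfl⟩ ⟨g', h⟩
    exact hvw (Subtype.ext (inj _ _ _ _ w.2 v.2 h).1.symm)
  have hun : ⋃ v, (U v).E = univ := by
    refine eq_univ_of_forall fun a => ?_
    obtain ⟨v, g, hv, rfl⟩ := surj a
    exact mem_iUnion.2 ⟨⟨v, hv⟩, by rw [hE]; exact mem_range_self g⟩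
  have hind : ∀ v X, (U v).Indep X ↔ (W v).Indep (f v ⁻¹' X) ∧ X ⊆ range (f v) := fun v X =>
    Matroid.mapEmbedding_indep_iff
  refine ⟨Matroid.disjointSigma U hdisj, ⟨by simp [hun], wground, unif, inj, fun I => ?_⟩,
    _, U, hdisj, fun v X hX => ?_, rfl⟩
  · rw [Matroid.disjointSigma_indep_iff, hun]
    simp only [subset_univ, and_true, hind, hE, inter_subset_right, preimage_inter_range,
      Subtype.forall]
  · rw [hE] at hX
    rcases unif v (f v ⁻¹' X) with h | h
    · exact Or.inl ((hind v X).2 ⟨h, hX⟩)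
    · right
      obtain ⟨B, hB, hBX⟩ := h.exists_isBase_subset
      have hB' : (U v).IsBase (f v '' B) := hB.mapEmbedding (e v)
      exact hB'.spanning.superset (image_subset_iff.2 hBX) (by rw [hE]; exact hX)

namespace IsSum

variable {M : Matroid α} {W : V → Matroid G} {f : V → G → α} {s : V → Prop}

lemma indep_insert (h : IsSum M W f s) {I : Set α} (hI : M.Indep I) {v : V} (hv : s v) {g : G}
    (hg : (W v).Indep (insert g (f v ⁻¹' I))) : M.Indep (insert (f v g) I) := by
  rw [h.indep] at hI ⊢
  intro w hw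
  by_cases hvw : w = v
  · subst hvw
    refine hg.subset ?_
    rintro g' (h' | h')
    · exact Or.inl (h.inj _ _ _ _ hw hw h').2
    · exact Or.inr h'
  · refine (hI w hw).subset ?_
    rintro g' (h' | h')
    · exact absurd (h.inj _ _ _ _ hw hv h').1 hvw
    · exact h'

lemma isBasis (h : IsSum M W f s) {I X : Set α} (hI : M.IsBasis I X) {v : V} (hv : s v) :
    (W v).IsBasis (f v ⁻¹' I) (f v ⁻¹' X) := by
  refine ((h.indep I).1 hI.indep v hv).isBasis_of_maximal_subset (preimage_mono hI.subset)
    (fun J hJ hIJ hJX g hg => ?_) (by rw [h.wground]; exact subset_univ _)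
  exact hI.mem_of_insert_indep (hJX hg)
    (h.indep_insert hI.indep hv (hJ.subset (insert_subset hg hIJ)))

lemma mem_closure (h : IsSum M W f s) {S : Set α} {v : V} (hv : s v) {g : G}
    (hg : f v g ∈ M.closure S) : g ∈ f v ⁻¹' S ∨ (W v).Spanning (f v ⁻¹' S) := by
  obtain ⟨I, hI⟩ := M.exists_isBasis S (by rw [h.ground]; exact subset_univ _)
  have hI' := h.isBasis hI hv
  have h1 : g ∈ (W v).closure (f v ⁻¹' S) := by
    rw [← hI.closure_eq_closure, hI.indep.mem_closure_iff'] at hg
    rw [← hI'.closure_eq_closure, hI'.indep.mem_closure_iff']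
    exact ⟨by rw [h.wground]; exact mem_univ _,
      fun h' => hg.2 (h.indep_insert hI.indep hv h')⟩
  rcases h.unif v (f v ⁻¹' S) with h2 | h2
  · by_cases h3 : g ∈ f v ⁻¹' S
    · exact Or.inl h3
    · right
      rcases h.unif v (insert g (f v ⁻¹' S)) with h4 | h4
      · exact absurd ((h2.mem_closure_iff'.1 h1).2 h4) h3
      · rw [Matroid.spanning_iff_closure_eq (by rw [h.wground]; exact subset_univ _),
          ← Matroid.closure_insert_eq_of_mem_closure h1]
        exact h4.closure_eq
  · exact Or.inr h2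

lemma contract (h : IsSum M W f s) {P C I : Set α} (hPC : Disjoint P C) (hU : P ∪ C = univ)
    (hI : (contractOnto M C).Indep I) {v : V} (hv : s v) :
    ∃ B, (W v).IsBasis B (f v ⁻¹' P) ∧ (W v).Indep (f v ⁻¹' I ∪ B) := by
  have hC : C = M.dual.E \ P := by
    rw [Matroid.dual_ground, h.ground, ← hU, union_sdiff_left, hPC.symm.sdiff_eq_left]
  have hI' : (M.contract P).Indep I := by
    unfold contractOnto at hI
    rw [hC] at hI
    exact hI
  obtain ⟨B, hB⟩ := M.exists_isBasis P (by rw [h.ground]; exact subset_univ _)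
  rw [hB.contract_indep_iff] at hI'
  exact ⟨f v ⁻¹' B, h.isBasis hB hv, (h.indep _).1 hI'.1 v hv⟩

end IsSum

/-- An orientation of the edges together with a partition of the vertices. -/
def Orient (W : V → Matroid G) (f : V → G → α) (side : V → Bool) : Prop :=
  ∃ (d : α → Bool) (VP : V → Prop),
    (∀ v, VP v → (W v).Spanning {g | d (f v g) = side v}) ∧
    (∀ v, ¬ VP v → (W v).Indep {g | d (f v g) = side v}) ∧
    (∀ v w g g', VP v → ¬ VP w → f v g = f w g' → d (f v g) = side w)

theorem orient_of_partition {W : V → Matroid G} {f : V → G → α} {side : V → Bool}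
    {M : Bool → Matroid α} (h : ∀ b, IsSum (M b) W f fun v => side v = b)
    (hPC : HasPackingCoveringPartition univ M) : Orient W f side := by
  classical
  obtain ⟨P, C, S, I, hd, hU, hSP, hIC, hSS, hcl, hI, hIU⟩ := hPC
  let d : α → Bool := fun a => if a ∈ P then decide (a ∈ S true) else decide (a ∈ I true)
  have hdS : ∀ b a, a ∈ S b → d a = b := by
    intro b a ha
    simp only [d, if_pos (hSP b ha)]
    cases b
    · simpa using fun h' => disjoint_left.1 (hSS false true (by simp)) ha h'
    · simpa using ha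
  have hdI : ∀ a, a ∉ P → a ∈ I (d a) := by
    intro a ha
    have haC : a ∈ C := (show a ∈ P ∪ C from hU ▸ mem_univ a).resolve_left ha
    obtain ⟨b, hb⟩ := mem_iUnion.1 (hIU ▸ haC : a ∈ ⋃ i, I i)
    simp only [d, if_neg ha]
    by_cases h' : a ∈ I true
    · simp [h']
    · cases b
      · simpa [h'] using hb
      · exact absurd hb h'
  have hcl' : ∀ v g, f v g ∈ P →
      g ∈ f v ⁻¹' S (side v) ∨ (W v).Spanning (f v ⁻¹' S (side v)) := by
    intro v g hg
    refine (h (side v)).mem_closure rfl ?_
    have := hcl (side v)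
    rw [Matroid.restrict_closure_eq _ (hSP _) (by rw [(h _).ground]; exact subset_univ _)] at this
    rw [← this] at hg
    exact hg.1
  have hE : ∀ v X, X ⊆ (W v).E := fun v X => by rw [(h true).wground]; exact subset_univ _
  have hnP : ∀ v, ¬ (W v).Spanning (f v ⁻¹' P) → ∀ g, f v g ∈ P → d (f v g) = side v := by
    intro v hv g hg
    rcases hcl' v g hg with h' | h'
    · exact hdS _ _ h'
    · exact absurd (h'.superset (preimage_mono (hSP _)) (hE _ _)) hv
  refine ⟨d, fun v => (W v).Spanning (f v ⁻¹' P), fun v hv => ?_, fun v hv => ?_,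
    fun v w g g' hv hw hgg => ?_⟩
  · have : (W v).Spanning (f v ⁻¹' S (side v)) := by
      by_contra hcon
      exact hcon (hv.superset (fun g hg => (hcl' v g hg).resolve_right hcon) (hE _ _))
    exact this.superset (fun g hg => hdS _ _ hg) (hE _ _)
  · obtain ⟨B, hB, hBI⟩ := (h (side v)).contract hd hU (hI _) (v := v) rfl
    have hP : (W v).Indep (f v ⁻¹' P) := ((h true).unif v _).resolve_right hv
    rw [hP.eq_of_isBasis hB] at hBI
    refine hBI.subset fun g hg => ?_
    by_cases hgP : f v g ∈ P
    · exact Or.inr hgP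
    · left
      have := hdI _ hgP
      rwa [show d (f v g) = side v from hg] at this
  · by_cases hgP : f v g ∈ P
    · rw [hgg] at hgP ⊢
      exact hnP w hw g' hgP
    · have hvw : side v ≠ side w := by
        intro hs
        obtain ⟨rfl, -⟩ := (h (side w)).inj v w g g' hs rfl hgg
        exact hw hv
      have h1 : d (f v g) ≠ side v := by
        intro hs
        obtain ⟨B, hB, hBI⟩ := (h (side v)).contract hd hU (hI _) (v := v) rfl
        have h2 := hdI _ hgP
        rw [hs] at h2
        have h3 := (hB.isBase_of_spanning hv).eq_of_subset_indep hBI subset_union_right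
        exact hgP (hB.subset (h3 ▸ (Or.inl h2 : g ∈ f v ⁻¹' I (side v) ∪ B)))
      revert h1 hvw
      cases d (f v g) <;> cases side v <;> cases side w <;> simp

theorem orient_of_intersection {W : V → Matroid G} {f : V → G → α} {side : V → Bool}
    {M N : Matroid α} (hM : IsSum M W f fun v => side v = true)
    (hN : IsSum N (fun v => (W v).dual) f fun v => side v = false)
    (hI : SatisfiesIntersection univ M N) : Orient W f side := by
  classical
  obtain ⟨J, JM, JN, hJM, hJN, hd, hU, hcl⟩ := hI
  have hE : ∀ v X, X ⊆ (W v).E := fun v X => by rw [hM.wground]; exact subset_univ _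
  have hMJ : JM ⊆ J := hU ▸ subset_union_left
  have hNJ : JN ⊆ J := hU ▸ subset_union_right
  have e1 : ∀ v, side v = true → {g | decide (f v g ∈ J) = side v} = f v ⁻¹' J := by
    intro v hv; ext g; simp [hv]
  have e2 : ∀ v, side v = false → {g | decide (f v g ∈ J) = side v} = (W v).E \ f v ⁻¹' J := by
    intro v hv; ext g; simp [hv, hM.wground]
  refine ⟨fun a => decide (a ∈ J), fun v => if side v = true then (W v).Spanning (f v ⁻¹' JM)
    else ¬ (W v).dual.Spanning (f v ⁻¹' JN), fun v hv => ?_, fun v hv => ?_,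
    fun v w g g' hv hw hgg => ?_⟩
  · beta_reduce at hv ⊢
    cases hs : side v
    · rw [← hs, e2 v hs]
      exact Matroid.Coindep.compl_spanning ((hN.indep J).1 hJN v hs)
    · rw [if_pos hs] at hv
      rw [← hs, e1 v hs]
      exact hv.superset (preimage_mono hMJ) (hE _ _)
  · beta_reduce at hv ⊢
    cases hs : side v
    · rw [if_neg (by simp [hs]), not_not] at hv
      rw [← hs, e2 v hs]
      have := (hv.superset (preimage_mono hNJ) (hE _ _)).compl_coindep
      rwa [Matroid.dual_coindep_iff] at this
    · rw [← hs, e1 v hs]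
      exact (hM.indep J).1 hJM v hs
  · beta_reduce at hv hw ⊢
    cases hs : side v <;> cases hs' : side w
    · obtain ⟨rfl, -⟩ := hN.inj v w g g' hs hs' hgg
      exact absurd hv hw
    · rw [if_neg (by simp [hs])] at hv
      rw [if_pos hs'] at hw
      rw [decide_eq_true_iff]
      rcases (show f v g ∈ M.closure JM ∪ N.closure JN from hcl ▸ mem_univ _) with h' | h'
      · rw [hgg] at h' ⊢
        exact hMJ ((hM.mem_closure hs' h').resolve_right hw)
      · exact hNJ ((hN.mem_closure hs h').resolve_right hv)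
    · rw [if_pos hs] at hv
      rw [if_neg (by simp [hs']), not_not] at hw
      rw [decide_eq_false_iff_not]
      intro hJ
      have h1 := ((hM.indep J).1 hJM v hs).eq_of_spanning_subset hv (preimage_mono hMJ)
      have h2 := ((hN.indep J).1 hJN w hs').eq_of_spanning_subset hw (preimage_mono hNJ)
      have h3 : g ∈ f v ⁻¹' JM := h1 ▸ hJ
      have h4 : g' ∈ f w ⁻¹' JN := h2 ▸ (show f w g' ∈ J from hgg ▸ hJ)
      exact disjoint_left.1 hd h3 (hgg ▸ h4)
    · obtain ⟨rfl, -⟩ := hM.inj v w g g' hs hs' hgg
      exact absurd hv hw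

end Vale.Agent.P068
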