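import Vale.Agent.P068.Ideals
import Vale.Agent.P068.Sum

/-!
The double ray and the final contradiction.
-/

namespace Vale.Agent.P068

open Set

/-- The bundle that carries the input copy (`false`) or the output copy (`true`) at vertex `v`. -/
def idx (v : ℤ) (b : Bool) : ℤ :=
  if 1 ≤ v then (if b = true then v else v - 1) else (if b = true then v - 1 else v)

def sd (v : ℤ) : Bool := decide (v % 2 = 0)

lemma sd_succ (v : ℤ) : sd (v + 1) = !sd v := by
  unfold sd
  by_cases h : v % 2 = 0
  · have : ¬ (v + 1) % 2 = 0 := by omega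
    simp [h, this]
  · have : (v + 1) % 2 = 0 := by omega
    simp [h, this]

lemma idx_inj {v w : ℤ} {b b' : Bool} (hs : sd v = sd w) (h : idx v b = idx w b') :
    v = w ∧ b = b' := by
  have hs' : v % 2 = 0 ↔ w % 2 = 0 := by simpa [sd] using hs
  unfold idx at h
  cases b <;> cases b' <;> simp only [Bool.false_eq_true, if_false, if_true] at h <;>
    split_ifs at h <;> first | (exfalso; omega) | exact ⟨by omega, rfl⟩

lemma idx_self (v : ℤ) : ∃ b, idx v b = v := by
  by_cases h : 1 ≤ v
  · exact ⟨true, by simp [idx, h]⟩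
  · exact ⟨false, by simp [idx, h]⟩

lemma idx_succ (v : ℤ) : ∃ b, idx (v + 1) b = v := by
  by_cases h : 1 ≤ v + 1
  · exact ⟨false, by simp only [idx, h]; simp⟩
  · exact ⟨true, by simp only [idx, h]; simp⟩

noncomputable def eqv : ℤ × EE ≃ ℕ :=
  @Denumerable.eqv _ (nonempty_denumerable (ℤ × EE)).some

noncomputable def ff (v : ℤ) (g : GG) : ℕ := eqv (idx v g.2, g.1)

lemma ff_inj (b : Bool) (v w : ℤ) (g g' : GG) (hv : sd v = b) (hw : sd w = b)
    (h : ff v g = ff w g') : v = w ∧ g = g' := by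
  obtain ⟨h1, h2⟩ := Prod.mk.inj (eqv.injective h)
  obtain ⟨h3, h4⟩ := idx_inj (hv.trans hw.symm) h1
  exact ⟨h3, Prod.ext h2 h4⟩

lemma ff_surj (b : Bool) (a : ℕ) : ∃ v g, sd v = b ∧ ff v g = a := by
  obtain ⟨⟨n, x⟩, rfl⟩ := eqv.surjective a
  by_cases h : sd n = b
  · obtain ⟨c, hc⟩ := idx_self n
    exact ⟨n, (x, c), h, by simp [ff, hc]⟩
  · obtain ⟨c, hc⟩ := idx_succ n
    refine ⟨n + 1, (x, c), ?_, by simp [ff, hc]⟩
    rw [sd_succ]
    revert h
    cases sd n <;> cases b <;> simp

lemma unif_dual {G : Type} {U : Matroid G} (hE : U.E = univ)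
    (h : ∀ X, U.Indep X ∨ U.Spanning X) (X : Set G) : U.dual.Indep X ∨ U.dual.Spanning X := by
  rcases h (U.E \ X) with h' | h'
  · right
    rw [Matroid.spanning_iff_compl_coindep (by rw [Matroid.dual_ground, hE]; exact subset_univ _)]
    exact h'.coindep
  · left
    exact (Matroid.coindep_iff_compl_spanning (by rw [hE]; exact subset_univ _)).2 h'

theorem not_orient {U : Matroid GG} (hE : U.E = univ)
    (hS : ∀ x, U.Indep x → ¬ SS (part x false) (part x true)ᶜ)
    (hT : ∀ x, U.Spanning x → ¬ TT (part x false) (part x true)ᶜ) :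
    ¬ Orient (fun v : ℤ => if 1 ≤ v then U else U.dual) ff sd := by
  rintro ⟨d, VP, h1, h2, h3⟩
  let A : ℤ → Set EE := fun n => {x | d (eqv (n, x)) = sd (n + 1)}
  have hne : ∀ (c : Bool) (v : ℤ), ¬ c = sd v ↔ c = sd (v + 1) := by
    intro c v
    rw [sd_succ]
    cases c <;> cases sd v <;> simp
  have cross1 : ∀ v, VP v → ¬ VP (v + 1) → A v = univ := by
    intro v hv hw
    obtain ⟨b, hb⟩ := idx_self v
    obtain ⟨c, hc⟩ := idx_succ v
    refine eq_univ_of_forall fun x => ?_
    have := h3 v (v + 1) (x, b) (x, c) hv hw (by simp [ff, hb, hc])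
    simpa [ff, hb, A] using this
  have cross2 : ∀ v, ¬ VP v → VP (v + 1) → A v = ∅ := by
    intro v hv hw
    obtain ⟨b, hb⟩ := idx_self v
    obtain ⟨c, hc⟩ := idx_succ v
    refine eq_empty_of_forall_notMem fun x hx => ?_
    have := h3 (v + 1) v (x, c) (x, b) hw hv (by simp [ff, hb, hc])
    simp only [ff, hc] at this
    exact (hne _ v).2 hx this
  have pos0 : ∀ v : ℤ, 1 ≤ v → part {g | d (ff v g) = sd v} false = A (v - 1) := by
    intro v hv; ext x; simp [part, ff, idx, hv, A]
  have pos1 : ∀ v : ℤ, 1 ≤ v → (part {g | d (ff v g) = sd v} true)ᶜ = A v := by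
    intro v hv; ext x
    simp only [part, ff, idx, hv, A, mem_compl_iff, mem_ofPred_eq, if_true]
    exact hne _ v
  have neg0 : ∀ v : ℤ, ¬ 1 ≤ v → part (U.E \ {g | d (ff v g) = sd v}) false = A v := by
    intro v hv; ext x
    simp only [part, ff, idx, hv, A, hE, Set.mem_sdiff, mem_ofPred_eq, mem_univ, true_and,
      if_false, Bool.false_eq_true]
    exact hne _ v
  have neg1 : ∀ v : ℤ, ¬ 1 ≤ v → (part (U.E \ {g | d (ff v g) = sd v}) true)ᶜ = A (v - 1) := by
    intro v hv; ext x; simp [part, ff, idx, hv, A, hE]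
  have hpos := ray (fun n : ℕ => A n) (fun n : ℕ => VP (n + 1))
    (fun n hn => by
      have hv : (1 : ℤ) ≤ n + 1 := by omega
      have := hT _ (by simpa only [hv, if_true] using h1 _ hn)
      rw [pos0 _ hv, pos1 _ hv] at this
      simpa using this)
    (fun n hn => by
      have hv : (1 : ℤ) ≤ n + 1 := by omega
      have := hS _ (by simpa only [hv, if_true] using h2 _ hn)
      rw [pos0 _ hv, pos1 _ hv] at this
      simpa using this)
    (fun n hn hn' => by
      push_cast at hn' ⊢
      exact cross1 _ hn hn')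
    (fun n hn hn' => by
      push_cast at hn' ⊢
      exact cross2 _ hn hn')
  have hneg := ray (fun n : ℕ => A (-n)) (fun n : ℕ => ¬ VP (-n))
    (fun n hn => by
      have hv : ¬ (1 : ℤ) ≤ -n := by omega
      have h4 : U.Coindep {g | d (ff (-n) g) = sd (-n)} := by
        simpa only [hv, if_false] using h2 _ hn
      have := hT _ h4.compl_spanning
      rw [neg0 _ hv, neg1 _ hv] at this
      rwa [show (-((n + 1 : ℕ) : ℤ)) = -n - 1 by push_cast; ring])
    (fun n hn => by
      have hv : ¬ (1 : ℤ) ≤ -n := by omega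
      have h4 : U.dual.Spanning {g | d (ff (-n) g) = sd (-n)} := by
        simpa only [hv, if_false] using h1 _ (not_not.1 hn)
      have h5 := h4.compl_coindep
      rw [Matroid.dual_coindep_iff] at h5
      have := hS _ h5
      rw [Matroid.dual_ground, neg0 _ hv, neg1 _ hv] at this
      rwa [show (-((n + 1 : ℕ) : ℤ)) = -n - 1 by push_cast; ring])
    (fun n hn hn' => by
      refine cross1 _ (not_not.1 hn') ?_
      rwa [show (-((n + 1 : ℕ) : ℤ)) + 1 = -n by push_cast; ring])
    (fun n hn hn' => by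
      refine cross2 _ hn' ?_
      rw [show (-((n + 1 : ℕ) : ℤ)) + 1 = -n by push_cast; ring]
      exact not_not.1 hn)
  simp only [Nat.cast_zero, neg_zero] at hpos hneg
  by_cases hp1 : VP (0 + 1)
  · have hD := hpos.1 hp1
    apply hD
    rw [cross2 0 (hneg.2 hD) hp1]
    exact idl_of_sm _ cE.sm_empty
  · have hD : Idl PA (A 0) := by_contra fun h => hp1 (hpos.2 h)
    have hp0 : VP 0 := by_contra fun h => hneg.1 h hD
    rw [cross1 0 hp0 hp1] at hD
    exact not_idl_univ hD

theorem main :
    (∃ M : Bool → Matroid ℕ, (∀ i, (M i).E = Set.univ) ∧ (∀ i, IsPartitional (M i)) ∧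
      ¬ HasPackingCoveringPartition Set.univ M) ∧
    (∃ M N : Matroid ℕ, M.E = Set.univ ∧ N.E = Set.univ ∧ IsPartitional M ∧ IsPartitional N ∧
      ¬ SatisfiesIntersection Set.univ M N) := by
  obtain ⟨U, hE, hU, hS, hT⟩ := exists_vertex_matroid
  let W : ℤ → Matroid GG := fun v => if 1 ≤ v then U else U.dual
  have hWE : ∀ v, (W v).E = univ := fun v => by
    simp only [W]; split_ifs
    · exact hE
    · exact hE
  have hWU : ∀ v X, (W v).Indep X ∨ (W v).Spanning X := fun v => by
    simp only [W]; split_ifs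
    · exact hU
    · exact unif_dual hE hU
  have hno : ¬ Orient W ff sd := not_orient hE hS hT
  choose M hM hMp using fun b : Bool =>
    exists_isSum W ff (fun v => sd v = b) hWE hWU (ff_inj b) (ff_surj b)
  obtain ⟨N, hN, hNp⟩ := exists_isSum (fun v => (W v).dual) ff (fun v => sd v = false) hWE
    (fun v => unif_dual (hWE v) (hWU v)) (ff_inj false) (ff_surj false)
  exact ⟨⟨M, fun b => (hM b).ground, hMp, fun h => hno (orient_of_partition hM h)⟩,
    M true, N, (hM true).ground, hN.ground, hMp true, hNp,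
    fun h => hno (orient_of_intersection (hM true) hN h)⟩

end Vale.Agent.P068
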