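import Mathlib

/-!
A finitely additive probability measure on the subsets of a countable set with continuum many
independent sets of measure one half, and the freeness relation.
-/

namespace Vale.Agent.P068

open Set Filter Topology
open scoped symmDiff

/-- Cantor space: the index set of the generators. -/
abbrev XX : Type := ℕ → Bool

/-- The points of level `k`. -/
abbrev Lev (k : ℕ) : Type := (Fin k → Bool) → Bool

/-- The countable sample space. -/
abbrev Om : Type := Σ k : ℕ, Lev k

def res (k : ℕ) (x : XX) : Fin k → Bool := fun i => x i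

def gen (x : XX) : Set Om := {w | w.2 (res w.1 x) = true}

def sgn (x : XX) (w : Om) : ℝ := if w.2 (res w.1 x) = true then -1 else 1

noncomputable def chi (r : Finset XX) (w : Om) : ℝ := ∏ x ∈ r, sgn x w

noncomputable def avg (k : ℕ) (f : Om → ℝ) : ℝ :=
  (∑ h : Lev k, f ⟨k, h⟩) / (Fintype.card (Lev k) : ℝ)

noncomputable def ind (S : Set Om) (r : Finset XX) : Om → ℝ := S.indicator (chi r)

noncomputable def phi (S : Set Om) (r : Finset XX) : ℝ :=
  limUnder (hyperfilter ℕ : Filter ℕ) (fun k => avg k (ind S r))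

noncomputable def mu (S : Set Om) : ℝ := phi S ∅

def Free (S : Set Om) (j : XX) : Prop := ∀ r : Finset XX, j ∈ r → phi S r = 0

lemma sgn_sq (x : XX) (w : Om) : sgn x w * sgn x w = 1 := by
  unfold sgn; split_ifs <;> norm_num

lemma chi_sq (r : Finset XX) (w : Om) : chi r w * chi r w = 1 := by
  unfold chi
  rw [← Finset.prod_mul_distrib]
  simp [sgn_sq]

lemma abs_chi (r : Finset XX) (w : Om) : |chi r w| = 1 := by
  have h := chi_sq r w
  have h2 : |chi r w| * |chi r w| = 1 := by rw [← abs_mul, h, abs_one]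
  nlinarith [abs_nonneg (chi r w)]

lemma chi_mul [DecidableEq XX] (r s : Finset XX) (w : Om) :
    chi r w * chi s w = chi (r ∆ s) w := by
  have h1 : chi (r ∪ s) w * chi (r ∩ s) w = chi r w * chi s w := Finset.prod_union_inter
  have h2 : r ∪ s = (r ∆ s) ∪ (r ∩ s) := by
    ext x; simp only [Finset.mem_union, Finset.mem_symmDiff, Finset.mem_inter]; tauto
  have h3 : Disjoint (r ∆ s) (r ∩ s) := by
    rw [Finset.disjoint_left]
    intro x; simp only [Finset.mem_symmDiff, Finset.mem_inter]; tauto
  have h4 : chi (r ∪ s) w = chi (r ∆ s) w * chi (r ∩ s) w := by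
    rw [h2]; exact Finset.prod_union h3
  rw [← h1, h4, mul_assoc, chi_sq, mul_one]

lemma card_pos (k : ℕ) : (0 : ℝ) < (Fintype.card (Lev k) : ℝ) := by
  exact_mod_cast Fintype.card_pos

lemma avg_const (k : ℕ) (c : ℝ) : avg k (fun _ => c) = c := by
  unfold avg
  have := card_pos k
  rw [Finset.sum_const, Finset.card_univ, nsmul_eq_mul]
  field_simp

lemma avg_mono (k : ℕ) {f g : Om → ℝ} (h : ∀ w, f w ≤ g w) : avg k f ≤ avg k g := by
  unfold avg
  exact div_le_div_of_nonneg_right (Finset.sum_le_sum fun _ _ => h _) (card_pos k).le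

lemma avg_add (k : ℕ) (f g : Om → ℝ) : avg k (fun w => f w + g w) = avg k f + avg k g := by
  unfold avg
  rw [Finset.sum_add_distrib, add_div]

lemma avg_mul (k : ℕ) (c : ℝ) (f : Om → ℝ) : avg k (fun w => c * f w) = c * avg k f := by
  unfold avg
  rw [← Finset.mul_sum, mul_div_assoc]

lemma avg_sum {ι : Type} (k : ℕ) (R : Finset ι) (f : ι → Om → ℝ) :
    avg k (fun w => ∑ i ∈ R, f i w) = ∑ i ∈ R, avg k (f i) := by
  unfold avg
  rw [Finset.sum_comm, Finset.sum_div]

lemma abs_ind (S : Set Om) (r : Finset XX) (w : Om) : |ind S r w| ≤ 1 := by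
  unfold ind
  by_cases h : w ∈ S
  · rw [indicator_of_mem h, abs_chi]
  · rw [indicator_of_notMem h]; simp

lemma avg_ind_mem (S : Set Om) (r : Finset XX) (k : ℕ) : avg k (ind S r) ∈ Icc (-1 : ℝ) 1 := by
  constructor
  · rw [← avg_const k (-1)]
    exact avg_mono k fun w => (abs_le.1 (abs_ind S r w)).1
  · rw [← avg_const k 1]
    exact avg_mono k fun w => (abs_le.1 (abs_ind S r w)).2

lemma tendsto_phi (S : Set Om) (r : Finset XX) :
    Tendsto (fun k => avg k (ind S r)) (hyperfilter ℕ : Filter ℕ) (𝓝 (phi S r)) := by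
  apply tendsto_nhds_limUnder
  obtain ⟨l, -, hl⟩ := (isCompact_Icc (a := (-1 : ℝ)) (b := 1)).ultrafilter_le_nhds
    ((hyperfilter ℕ).map fun k => avg k (ind S r)) (by
      rw [Ultrafilter.coe_map, le_principal_iff, mem_map]
      exact Eventually.of_forall fun k => avg_ind_mem S r k)
  exact ⟨l, hl⟩

lemma phi_lin {S S₁ S₂ : Set Om} {r r₁ r₂ : Finset XX} {c₁ c₂ : ℝ}
    (h : ∀ w, ind S r w = c₁ * ind S₁ r₁ w + c₂ * ind S₂ r₂ w) :
    phi S r = c₁ * phi S₁ r₁ + c₂ * phi S₂ r₂ := by
  refine tendsto_nhds_unique (tendsto_phi S r) ?_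
  have : (fun k => avg k (ind S r)) =
      fun k => c₁ * avg k (ind S₁ r₁) + c₂ * avg k (ind S₂ r₂) := by
    funext k
    rw [← avg_mul, ← avg_mul, ← avg_add]
    congr 1; funext w; exact h w
  rw [this]
  exact ((tendsto_phi S₁ r₁).const_mul c₁).add ((tendsto_phi S₂ r₂).const_mul c₂)

lemma phi_of_eventually {S : Set Om} {r : Finset XX} {c : ℝ}
    (h : ∀ᶠ k in atTop, avg k (ind S r) = c) : phi S r = c := by
  refine tendsto_nhds_unique (tendsto_phi S r) ?_
  have h' : ∀ᶠ k in (hyperfilter ℕ : Filter ℕ), avg k (ind S r) = c :=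
    h.filter_mono (by rw [← Nat.cofinite_eq_atTop]; exact hyperfilter_le_cofinite)
  exact tendsto_const_nhds.congr' (h'.mono fun k hk => hk.symm)

lemma ind_empty_nonneg (S : Set Om) (w : Om) : 0 ≤ ind S ∅ w := by
  unfold ind
  by_cases h : w ∈ S
  · rw [indicator_of_mem h]; simp [chi]
  · rw [indicator_of_notMem h]

lemma mu_nonneg (S : Set Om) : 0 ≤ mu S := by
  refine ge_of_tendsto (tendsto_phi S ∅) (Eventually.of_forall fun k => ?_)
  rw [← avg_const k 0]
  exact avg_mono k (ind_empty_nonneg S)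

lemma mu_le_one (S : Set Om) : mu S ≤ 1 :=
  le_of_tendsto (tendsto_phi S ∅) (Eventually.of_forall fun k => (avg_ind_mem S ∅ k).2)

lemma mu_union {S T : Set Om} (h : Disjoint S T) : mu (S ∪ T) = mu S + mu T := by
  have := phi_lin (S := S ∪ T) (S₁ := S) (S₂ := T) (r := ∅) (r₁ := ∅) (r₂ := ∅) (c₁ := 1)
    (c₂ := 1) (fun w => by
      unfold ind
      rw [indicator_union_of_disjoint h]; simp)
  simpa [mu] using this

lemma mu_finite {S : Set Om} (h : S.Finite) : mu S = 0 := by
  apply phi_of_eventually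
  obtain ⟨n, hn⟩ := (h.image Sigma.fst).bddAbove
  filter_upwards [eventually_gt_atTop n] with k hk
  unfold avg
  rw [Finset.sum_eq_zero, zero_div]
  intro f _
  apply indicator_of_notMem
  intro hf
  have := hn (mem_image_of_mem Sigma.fst hf)
  simp only at this
  omega

lemma mu_univ : mu univ = 1 := by
  apply phi_of_eventually
  refine Eventually.of_forall fun k => ?_
  rw [← avg_const k 1]
  congr 1; funext w; simp [ind, chi]

lemma res_ne {x y : XX} (h : x ≠ y) : ∀ᶠ k in atTop, res k x ≠ res k y := by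
  obtain ⟨i, hi⟩ := Function.ne_iff.1 h
  filter_upwards [eventually_gt_atTop i] with k hk
  intro he
  exact hi (congrFun he ⟨i, hk⟩)

lemma avg_chi {r : Finset XX} (hr : r.Nonempty) : ∀ᶠ k in atTop, avg k (chi r) = 0 := by
  classical
  obtain ⟨x, hx⟩ := hr
  have h1 : ∀ᶠ k in atTop, ∀ y ∈ r.erase x, res k y ≠ res k x :=
    (Finset.eventually_all _).2 fun y hy => res_ne (Finset.ne_of_mem_erase hy)
  filter_upwards [h1] with k hk
  let fl : Lev k → Lev k := fun h => Function.update h (res k x) (!h (res k x))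
  have hinv : Function.Involutive fl := by
    intro h
    simp [fl]
  have hneg : ∀ h : Lev k, chi r ⟨k, fl h⟩ = - chi r ⟨k, h⟩ := by
    intro h
    unfold chi
    rw [← Finset.mul_prod_erase r _ hx, ← Finset.mul_prod_erase r _ hx, ← neg_mul]
    congr 1
    · unfold sgn
      simp only [fl, Function.update_self]
      by_cases hb : h (res k x) = true <;> simp [hb]
    · refine Finset.prod_congr rfl fun y hy => ?_
      unfold sgn
      simp only [fl, Function.update_of_ne (hk y hy)]
  have hs : ∑ h : Lev k, chi r ⟨k, h⟩ = - ∑ h : Lev k, chi r ⟨k, h⟩ := by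
    rw [← Finset.sum_neg_distrib, ← Equiv.sum_comp hinv.toPerm]
    exact Finset.sum_congr rfl fun h _ => hneg h
  unfold avg
  have : ∑ h : Lev k, chi r ⟨k, h⟩ = 0 := by linarith
  rw [this, zero_div]

lemma free_univ (j : XX) : Free univ j := by
  intro r hj
  apply phi_of_eventually
  filter_upwards [avg_chi ⟨j, hj⟩] with k hk
  rw [← hk]
  congr 1; funext w; simp [ind]

lemma chi_singleton (i : XX) (w : Om) : chi {i} w = sgn i w := by simp [chi]

lemma phi_inter [DecidableEq XX] (S : Set Om) (i : XX) (r : Finset XX) :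
    phi (S ∩ gen i) r = (1 / 2) * phi S r + (-1 / 2) * phi S (r ∆ {i}) := by
  apply phi_lin
  intro w
  unfold ind
  by_cases h : w ∈ S
  · rw [indicator_of_mem h, indicator_of_mem h, ← chi_mul, chi_singleton]
    by_cases h2 : w ∈ gen i
    · rw [indicator_of_mem (show w ∈ S ∩ gen i from ⟨h, h2⟩)]
      have : sgn i w = -1 := if_pos h2
      rw [this]; ring
    · rw [indicator_of_notMem (fun h' => h2 h'.2)]
      have : sgn i w = 1 := if_neg h2
      rw [this]; ring
  · rw [indicator_of_notMem h, indicator_of_notMem h, indicator_of_notMem (fun h' => h h'.1)]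
    ring

lemma phi_diff [DecidableEq XX] (S : Set Om) (i : XX) (r : Finset XX) :
    phi (S \ gen i) r = (1 / 2) * phi S r + (1 / 2) * phi S (r ∆ {i}) := by
  apply phi_lin
  intro w
  unfold ind
  by_cases h : w ∈ S
  · rw [indicator_of_mem h, indicator_of_mem h, ← chi_mul, chi_singleton]
    by_cases h2 : w ∈ gen i
    · rw [indicator_of_notMem (fun h' => h'.2 h2)]
      have : sgn i w = -1 := if_pos h2
      rw [this]; ring
    · rw [indicator_of_mem (show w ∈ S \ gen i from ⟨h, h2⟩)]
      have : sgn i w = 1 := if_neg h2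
      rw [this]; ring
  · rw [indicator_of_notMem h, indicator_of_notMem h, indicator_of_notMem (fun h' => h h'.1)]
    ring

lemma Free.inter {S : Set Om} {i j : XX} (h : Free S j) (hij : i ≠ j) : Free (S ∩ gen i) j := by
  classical
  intro r hr
  rw [phi_inter, h r hr, h _ (by simp [Finset.mem_symmDiff, hr, hij.symm])]
  ring

lemma Free.diff {S : Set Om} {i j : XX} (h : Free S j) (hij : i ≠ j) : Free (S \ gen i) j := by
  classical
  intro r hr
  rw [phi_diff, h r hr, h _ (by simp [Finset.mem_symmDiff, hr, hij.symm])]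
  ring

lemma Free.mu_inter {S : Set Om} {j : XX} (h : Free S j) : mu (S ∩ gen j) = mu S / 2 := by
  classical
  unfold mu
  rw [phi_inter, h (∅ ∆ {j}) (by simp [Finset.mem_symmDiff])]
  ring

lemma Free.mu_diff {S : Set Om} {j : XX} (h : Free S j) : mu (S \ gen j) = mu S / 2 := by
  classical
  unfold mu
  rw [phi_diff, h (∅ ∆ {j}) (by simp [Finset.mem_symmDiff])]
  ring

lemma bessel_level (S : Set Om) (R : Finset (Finset XX)) (k : ℕ)
    (horth : ∀ r ∈ R, ∀ s ∈ R, r ≠ s → avg k (fun w => chi r w * chi s w) = 0) :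
    ∑ r ∈ R, avg k (ind S r) ^ 2 ≤ 1 := by
  classical
  set c : Finset XX → ℝ := fun r => avg k (ind S r) with hc
  have h0 : 0 ≤ avg k (fun w => (ind S ∅ w - ∑ r ∈ R, c r * chi r w) ^ 2) := by
    rw [← avg_const k 0]
    exact avg_mono k fun w => sq_nonneg _
  have h1 : (fun w => (ind S ∅ w - ∑ r ∈ R, c r * chi r w) ^ 2) =
      fun w => (ind S ∅ w + (-2) * ∑ r ∈ R, c r * ind S r w) +
        ∑ r ∈ R, ∑ s ∈ R, (c r * c s) * (chi r w * chi s w) := by
    funext w
    have e1 : ind S ∅ w ^ 2 = ind S ∅ w := by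
      unfold ind
      by_cases h : w ∈ S
      · rw [indicator_of_mem h]; simp [chi]
      · rw [indicator_of_notMem h]; simp
    have e2 : ind S ∅ w * ∑ r ∈ R, c r * chi r w = ∑ r ∈ R, c r * ind S r w := by
      rw [Finset.mul_sum]
      refine Finset.sum_congr rfl fun r _ => ?_
      unfold ind
      by_cases h : w ∈ S
      · rw [indicator_of_mem h, indicator_of_mem h]; simp [chi]
      · rw [indicator_of_notMem h, indicator_of_notMem h]; simp
    have e3 : (∑ r ∈ R, c r * chi r w) ^ 2 =
        ∑ r ∈ R, ∑ s ∈ R, (c r * c s) * (chi r w * chi s w) := by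
      rw [sq, Finset.sum_mul_sum]
      refine Finset.sum_congr rfl fun r _ => Finset.sum_congr rfl fun s _ => by ring
    rw [sub_sq, e1, mul_assoc, e2, e3]; ring
  rw [h1, avg_add, avg_add, avg_mul, avg_sum, avg_sum] at h0
  have h2 : ∑ r ∈ R, avg k (fun w => c r * ind S r w) = ∑ r ∈ R, c r ^ 2 := by
    refine Finset.sum_congr rfl fun r _ => ?_
    rw [avg_mul, sq]
  have h3 : ∑ r ∈ R, avg k (fun w => ∑ s ∈ R, (c r * c s) * (chi r w * chi s w)) =
      ∑ r ∈ R, c r ^ 2 := by
    refine Finset.sum_congr rfl fun r hr => ?_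
    rw [avg_sum, Finset.sum_eq_single r]
    · rw [avg_mul]
      simp only [chi_sq, avg_const]; ring
    · intro s hs hsr
      rw [avg_mul, horth r hr s hs (Ne.symm hsr), mul_zero]
    · intro h; exact absurd hr h
  rw [h2, h3] at h0
  have h4 := (avg_ind_mem S ∅ k).2
  linarith

lemma bessel (S : Set Om) (R : Finset (Finset XX)) : ∑ r ∈ R, phi S r ^ 2 ≤ 1 := by
  classical
  have h1 : ∀ᶠ k in atTop, ∀ r ∈ R, ∀ s ∈ R, r ≠ s → avg k (fun w => chi r w * chi s w) = 0 := by
    refine (Finset.eventually_all _).2 fun r _ => (Finset.eventually_all _).2 fun s _ => ?_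
    by_cases hrs : r = s
    · exact Eventually.of_forall fun k h => absurd hrs h
    · have hne : (r ∆ s).Nonempty := by
        rw [Finset.nonempty_iff_ne_empty]
        intro h
        exact hrs (symmDiff_eq_bot.1 h)
      filter_upwards [avg_chi hne] with k hk _
      rw [← hk]
      congr 1; funext w; exact chi_mul r s w
  have h2 : ∀ᶠ k in (hyperfilter ℕ : Filter ℕ), ∑ r ∈ R, avg k (ind S r) ^ 2 ≤ 1 :=
    (h1.mono fun k hk => bessel_level S R k hk).filter_mono
      (by rw [← Nat.cofinite_eq_atTop]; exact hyperfilter_le_cofinite)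
  exact le_of_tendsto (tendsto_finsetSum R fun r _ => (tendsto_phi S r).pow 2) h2

lemma countable_not_free (S : Set Om) : {j | ¬ Free S j}.Countable := by
  have h1 : Summable fun r : Finset XX => phi S r ^ 2 :=
    summable_of_sum_le (fun r => sq_nonneg _) (bessel S)
  have h2 := h1.countable_support
  refine (h2.biUnion fun r _ => (r : Set XX).to_countable).mono ?_
  intro j hj
  simp only [Free, not_forall, mem_ofPred_eq] at hj
  obtain ⟨r, hr, hne⟩ := hj
  simp only [mem_iUnion]
  exact ⟨r, by simpa using hne, by simpa using hr⟩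

end Vale.Agent.P068
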