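import Vale.Agent.P068.Ivp

/-!
A uniform matroid from a column system and a suitable antichain modulo small sets.
-/

namespace Vale.Agent.P068

open Set Filter Topology

namespace ColSys

variable {G : Type} (c : ColSys G)

/-- Inclusion modulo small sets. -/
def Le (x y : Set G) : Prop := c.Sm (x \ y)

variable {c} in
lemma Le.trans {x y z : Set G} (h1 : c.Le x y) (h2 : c.Le y z) : c.Le x z := by
  refine (Sm.union h1 h2).mono fun g hg => ?_
  by_cases h : g ∈ y
  · exact Or.inr ⟨h, hg.2⟩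
  · exact Or.inl ⟨hg.1, h⟩

lemma le_of_subset {x y : Set G} (h : x ⊆ y) : c.Le x y := by
  unfold Le; rw [sdiff_eq_empty.2 h]; exact c.sm_empty

lemma insert_le (e : G) (x : Set G) : c.Le (insert e x) x :=
  (c.sm_of_finite (finite_singleton e)).mono fun g hg => by
    rcases hg with ⟨h | h, h'⟩
    · exact h
    · exact absurd h h'

noncomputable def g (a x : Set G) (m : ℕ) : ℝ := c.H (x \ a) m - c.H (a \ x) m

lemma g_union {a x T : Set G} (h1 : c.Le x a) (h2 : c.Le a x) (hT : c.Sm T) (hd : Disjoint x T)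
    (m : ℕ) : c.g a (x ∪ T) m = c.g a x m + c.H T m := by
  unfold g
  have e1 : (x ∪ T) \ a = (x \ a) ∪ (T \ a) := union_sdiff_distrib
  have e2 : a \ x = (a \ (x ∪ T)) ∪ (T ∩ a) := by
    ext g
    simp only [Set.mem_sdiff, mem_union, mem_inter_iff]
    constructor
    · rintro ⟨h, h'⟩
      by_cases hT : g ∈ T
      · exact Or.inr ⟨hT, h⟩
      · exact Or.inl ⟨h, fun h'' => h''.elim h' hT⟩
    · rintro (⟨h, h'⟩ | ⟨h, h'⟩)
      · exact ⟨h, fun h'' => h' (Or.inl h'')⟩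
      · exact ⟨h', fun h'' => disjoint_left.1 hd h'' h⟩
  have e3 : T = (T \ a) ∪ (T ∩ a) := (sdiff_union_inter T a).symm
  have f1 := c.H_union h1 (hT.mono (sdiff_subset : T \ a ⊆ T))
    (hd.mono sdiff_subset sdiff_subset) m
  have f2 := c.H_union (S := a \ (x ∪ T)) (T := T ∩ a)
    (Sm.mono h2 (sdiff_subset_sdiff_right subset_union_left)) (hT.mono inter_subset_left)
    (disjoint_left.2 fun g hg hg' => hg.2 (Or.inr hg'.1)) m
  have f3 := c.H_union (S := T \ a) (T := T ∩ a) (hT.mono sdiff_subset)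
    (hT.mono inter_subset_left) (disjoint_left.2 fun g hg hg' => hg.2 hg'.2) m
  rw [← e1] at f1
  rw [← e2] at f2
  rw [← e3] at f3
  linarith

lemma g_mono {a x y : Set G} (hxy : x ⊆ y) (h1 : c.Le y a) (h2 : c.Le a x) (m : ℕ) :
    c.g a x m ≤ c.g a y m := by
  unfold g
  linarith [c.H_mono h1 (sdiff_subset_sdiff_left hxy : x \ a ⊆ y \ a) m,
    c.H_mono h2 (sdiff_subset_sdiff_right hxy : a \ y ⊆ a \ x) m]

lemma g_insert {a x : Set G} (h1 : c.Le x a) (h2 : c.Le a x) {e : G} (he : e ∉ x) :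
    ∀ᶠ m in atTop, c.g a (insert e x) m = c.g a x m + 1 := by
  filter_upwards [c.H_finite_eventually (finite_singleton e)] with m hm
  rw [← union_singleton, c.g_union h1 h2 (c.sm_of_finite (finite_singleton e)) (by simpa using he),
    hm]
  simp

/-- The independent sets. -/
def Ind (A : Set (Set G)) (x : Set G) : Prop :=
  ∃ a ∈ A, c.Le x a ∧ (c.Le a x → ∀ᶠ m in atTop, c.g a x m ≤ 0)

variable {c} {A : Set (Set G)}

lemma Ind.mono {x y : Set G} (h : c.Ind A y) (hxy : x ⊆ y) : c.Ind A x := by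
  obtain ⟨a, ha, h1, h2⟩ := h
  refine ⟨a, ha, (c.le_of_subset hxy).trans h1, fun h3 => ?_⟩
  filter_upwards [h2 (h3.trans (c.le_of_subset hxy))] with m hm
  exact (c.g_mono hxy h1 h3 m).trans hm

lemma Ind.exchange {x : Set G} {e f : G} (h : c.Ind A (insert f x)) (hf : f ∉ x) (he : e ∉ x) :
    c.Ind A (insert e x) := by
  obtain ⟨a, ha, h1, h2⟩ := h
  have hxa : c.Le x a := (c.le_of_subset (subset_insert f x)).trans h1
  refine ⟨a, ha, (c.insert_le e x).trans hxa, fun h3 => ?_⟩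
  have hax : c.Le a x := h3.trans (c.insert_le e x)
  filter_upwards [h2 (hax.trans (c.le_of_subset (subset_insert f x))), c.g_insert hxa hax he,
    c.g_insert hxa hax hf] with m hm hm1 hm2
  linarith

lemma core (hanti : ∀ a ∈ A, ∀ b ∈ A, c.Le a b → a = b)
    (hcov : ∀ I X : Set G, I ⊆ X → ∃ a ∈ A, c.Le a I ∨ c.Le X a ∨ (c.Le I a ∧ c.Le a X))
    {I X : Set G} (hI : c.Ind A I) (hIX : I ⊆ X) (hX : ¬ c.Ind A X) :
    ∃ B, I ⊆ B ∧ B ⊆ X ∧ c.Ind A B ∧ ∀ e ∉ B, ¬ c.Ind A (insert e B) := by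
  obtain ⟨a₀, ha₀, hIa₀, hI0⟩ := hI
  obtain ⟨a, ha, hcase⟩ := hcov I X hIX
  have hXa : c.Le X a → c.Le a X ∧ ¬ ∀ᶠ m in atTop, c.g a X m ≤ 0 := by
    intro h
    by_contra hcon
    exact hX ⟨a, ha, h, fun h' => by_contra fun h'' => hcon ⟨h', h''⟩⟩
  have haI : c.Le a I → c.Le I a ∧ ∀ᶠ m in atTop, c.g a I m ≤ 0 := by
    intro h
    obtain rfl : a = a₀ := hanti a ha a₀ ha₀ (h.trans hIa₀)
    exact ⟨hIa₀, hI0 h⟩
  have hmid : c.Le I a ∧ c.Le a X := by
    rcases hcase with h | h | h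
    · exact ⟨(haI h).1, h.trans (c.le_of_subset hIX)⟩
    · exact ⟨(c.le_of_subset hIX).trans h, (hXa h).1⟩
    · exact h
  obtain ⟨hIa, haX⟩ := hmid
  let x₀ : Set G := (a ∪ I) ∩ X
  have hIx : I ⊆ x₀ := fun g hg => ⟨Or.inr hg, hIX hg⟩
  have hxX : x₀ ⊆ X := inter_subset_right
  have hxa : c.Le x₀ a := Sm.mono hIa (by
    rintro g ⟨⟨h | h, -⟩, h'⟩
    · exact absurd h h'
    · exact ⟨h, h'⟩)
  have hax : c.Le a x₀ := Sm.mono haX (by
    rintro g ⟨h, h'⟩
    exact ⟨h, fun h'' => h' ⟨Or.inl h, h''⟩⟩)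
  have hd : ∃ d, I ⊆ d ∧ d ⊆ x₀ ∧ c.Le a d ∧ ∀ᶠ m in atTop, c.g a d m ≤ 0 := by
    by_cases h : c.Le a I
    · exact ⟨I, Subset.rfl, hIx, h, (haI h).2⟩
    · have hpos : ¬ c.Sm (x₀ \ I) := fun h' => h (hax.trans h')
      obtain ⟨T, hT1, hT2, hT3⟩ := c.exists_dominating hpos (x₀ \ a)
      have hadd : c.Le a (x₀ \ T) := hax.trans (hT2.mono fun g hg => by
        by_contra h'; exact hg.2 ⟨hg.1, h'⟩)
      refine ⟨x₀ \ T, fun g hg => ⟨hIx hg, fun h' => (hT1 h').2 hg⟩, sdiff_subset, hadd, ?_⟩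
      filter_upwards [hT3] with m hm
      have h1 := c.g_union ((c.le_of_subset (sdiff_subset : x₀ \ T ⊆ x₀)).trans hxa) hadd hT2
        disjoint_sdiff_left m
      rw [sdiff_union_of_subset (hT1.trans sdiff_subset)] at h1
      have h2 := c.H_nonneg (a \ x₀) m
      unfold g at h1 ⊢
      linarith
  have hu : ∃ u, x₀ ⊆ u ∧ u ⊆ X ∧ c.Le u a ∧ ¬ ∀ᶠ m in atTop, c.g a u m ≤ 0 := by
    by_cases h : c.Le X a
    · exact ⟨X, hxX, Subset.rfl, h, (hXa h).2⟩
    · have hpos : ¬ c.Sm (X \ x₀) := fun h' => h (Le.trans h' hxa)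
      obtain ⟨T, hT1, hT2, hT3⟩ := c.exists_dominating hpos (a \ x₀)
      refine ⟨x₀ ∪ T, subset_union_left, union_subset hxX (hT1.trans sdiff_subset), ?_, ?_⟩
      · refine Le.trans (hT2.mono ?_) hxa
        rintro g ⟨h1 | h1, h2⟩
        · exact absurd h1 h2
        · exact h1
      · intro h0
        obtain ⟨m, hm1, hm2⟩ := (h0.and hT3).exists
        rw [c.g_union hxa hax hT2 (disjoint_left.2 fun g hg hg' => (hT1 hg').2 hg)] at hm1
        have h2 := c.H_nonneg (x₀ \ a) m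
        unfold g at hm1
        linarith
  obtain ⟨d, hId, hdx, had, hd0⟩ := hd
  obtain ⟨u, hxu, huX, hua, hu0⟩ := hu
  have hdu : d ⊆ u := hdx.trans hxu
  have hda : c.Le d a := (c.le_of_subset hdu).trans hua
  have hY : c.Sm (u \ d) := hua.trans had
  have hgood : ∀ S, c.Sm S → Disjoint d S →
      (c.Good (fun m => - c.g a d m) S ↔ ∀ᶠ m in atTop, c.g a (d ∪ S) m ≤ 0) := by
    intro S hS hdS
    refine eventually_congr (Eventually.of_forall fun m => ?_)
    rw [c.g_union hda had hS hdS]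
    constructor <;> intro h <;> linarith
  obtain ⟨S, hS1, hS2, hS3⟩ := c.exists_tight (fun m => - c.g a d m) hY
    ((hgood ∅ c.sm_empty (disjoint_empty _)).2 (by simpa using hd0))
    (fun h => hu0 (by
      have := (hgood _ hY disjoint_sdiff_right).1 h
      rwa [union_sdiff_cancel hdu] at this))
  have hS : c.Sm S := hY.mono hS1
  have hdS : Disjoint d S := disjoint_left.2 fun g hg hg' => (hS1 hg').2 hg
  have hBu : d ∪ S ⊆ u := union_subset hdu (hS1.trans sdiff_subset)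
  refine ⟨d ∪ S, hId.trans subset_union_left, hBu.trans huX,
    ⟨a, ha, (c.le_of_subset hBu).trans hua, fun _ => (hgood S hS hdS).1 hS2⟩, ?_⟩
  rintro e he ⟨a₁, ha₁, h1, h2⟩
  have h3 : c.Le a (insert e (d ∪ S)) :=
    had.trans (c.le_of_subset (subset_union_left.trans (subset_insert _ _)))
  obtain rfl : a = a₁ := hanti a ha a₁ ha₁ (h3.trans h1)
  apply hS3 e (fun h => he (Or.inr h))
  rw [hgood (insert e S) ((c.sm_of_finite (finite_singleton e)).union hS)
    (disjoint_left.2 fun g hg hg' => by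
      rcases hg' with rfl | hg'
      · exact he (Or.inl hg)
      · exact disjoint_left.1 hdS hg hg'), union_insert]
  exact h2 h3

lemma maximal_of_forall {B : Set G} (hB : c.Ind A B) (h : ∀ e ∉ B, ¬ c.Ind A (insert e B)) :
    Maximal (c.Ind A) B := by
  refine ⟨hB, fun K hK hBK e he => ?_⟩
  by_contra he'
  exact h e he' (hK.mono (insert_subset he hBK))

theorem exists_uniform (c : ColSys G) (A : Set (Set G))
    (hanti : ∀ a ∈ A, ∀ b ∈ A, c.Le a b → a = b)
    (hcov : ∀ I X : Set G, I ⊆ X → ∃ a ∈ A, c.Le a I ∨ c.Le X a ∨ (c.Le I a ∧ c.Le a X))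
    (hpos : ∀ a ∈ A, ¬ c.Sm a) :
    ∃ U : Matroid G, U.E = univ ∧ (∀ X, U.Indep X ∨ U.Spanning X) ∧
      (∀ x, U.Indep x → ∃ a ∈ A, c.Le x a) ∧ (∀ x, U.Spanning x → ∃ a ∈ A, c.Le a x) := by
  have hempty : c.Ind A ∅ := by
    obtain ⟨a, ha, -⟩ := hcov ∅ ∅ Subset.rfl
    exact ⟨a, ha, c.le_of_subset (empty_subset a), fun h => absurd (by simpa [Le] using h)
      (hpos a ha)⟩
  let U : IndepMatroid G :=
    { E := univ
      Indep := c.Ind A
      indep_empty := hempty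
      indep_subset := fun I J hJ hIJ => hJ.mono hIJ
      indep_aug := by
        intro I B hI hnI hB
        have h1 : ∃ f ∉ I, c.Ind A (insert f I) := by
          by_contra hcon
          exact hnI (maximal_of_forall hI fun e he h => hcon ⟨e, he, h⟩)
        obtain ⟨f, hf, hfI⟩ := h1
        have h2 : ¬ B ⊆ I := by
          intro hBI
          exact hf (hBI (hB.le_of_ge hfI (hBI.trans (subset_insert f I)) (mem_insert f I)))
        obtain ⟨e, heB, heI⟩ := not_subset.1 h2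
        exact ⟨e, ⟨heB, heI⟩, hfI.exchange hf heI⟩
      indep_maximal := by
        intro X _ I hI hIX
        by_cases hX : c.Ind A X
        · exact ⟨X, hIX, ⟨hX, Subset.rfl⟩, fun K hK _ => hK.2⟩
        · obtain ⟨B, h1, h2, h3, h4⟩ := core hanti hcov hI hIX hX
          exact ⟨B, h1, ⟨h3, h2⟩, fun K hK hBK => (maximal_of_forall h3 h4).le_of_ge hK.1 hBK⟩
      subset_ground := fun I _ => subset_univ I }
  refine ⟨U.matroid, rfl, fun X => ?_, fun x hx => ?_, fun x hx => ?_⟩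
  · by_cases hX : c.Ind A X
    · exact Or.inl hX
    · obtain ⟨B, -, h2, h3, h4⟩ := core hanti hcov hempty (empty_subset X) hX
      have hB : U.matroid.IsBase B := maximal_of_forall h3 h4
      exact Or.inr (hB.spanning.superset h2 (subset_univ X))
  · obtain ⟨a, ha, h, -⟩ := (show c.Ind A x from hx)
    exact ⟨a, ha, h⟩
  · obtain ⟨B, hB, hBx⟩ := hx.exists_isBase_subset
    have hB' : Maximal (c.Ind A) B := hB
    obtain ⟨a, ha, h1, -⟩ := hB'.prop
    refine ⟨a, ha, Le.trans ?_ (c.le_of_subset hBx)⟩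
    by_contra h2
    obtain ⟨e, hea, heB⟩ := not_subset.1 fun h => h2 (c.le_of_subset h)
    have h3 : c.Ind A (insert e B) :=
      ⟨a, ha, (c.insert_le e B).trans h1, fun h => absurd (h.trans (c.insert_le e B)) h2⟩
    exact heB (hB'.le_of_ge h3 (subset_insert e B) (mem_insert e B))

end ColSys

end Vale.Agent.P068
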